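import Vale.Agent.P254.Defs

open MeasureTheory Set
open scoped ENNReal

namespace Vale.Agent.P254

/-- AFF. Change of variables: the covariance matrix of `T '' K` is `L Σ Lᵀ` with `L` the linear
part and the volume is `|det L| * volume K`. -/
theorem isoConst_affine {n : ℕ} (T : (Fin n → ℝ) ≃ᵃ[ℝ] (Fin n → ℝ)) {K : Set (Fin n → ℝ)}
    (hK : IsCompact K) (hV : volume K ≠ 0) : isoConst (T '' K) = isoConst K := by
  classical
  let L : (Fin n → ℝ) →L[ℝ] (Fin n → ℝ) :=
    LinearMap.toContinuousLinearMap (T.linear : (Fin n → ℝ) →ₗ[ℝ] (Fin n → ℝ))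
  let M : Matrix (Fin n) (Fin n) ℝ :=
    LinearMap.toMatrix' (T.linear : (Fin n → ℝ) →ₗ[ℝ] (Fin n → ℝ))
  have hTL : ∀ x, T x = L x + T 0 := by
    intro x
    have h := T.map_vadd 0 x
    simp only [vadd_eq_add, add_zero] at h
    exact h
  have hLM : ∀ x i, L x i = ∑ j, M i j * x j := by
    intro x i
    have h : M.mulVec x = L x := by
      change (LinearMap.toMatrix' (T.linear : (Fin n → ℝ) →ₗ[ℝ] (Fin n → ℝ))).mulVec x = _
      rw [LinearMap.toMatrix'_mulVec]
      rfl
    rw [← h]
    rfl
  have hdet : L.det = M.det := by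
    change LinearMap.det (T.linear : (Fin n → ℝ) →ₗ[ℝ] (Fin n → ℝ)) = _
    rw [← LinearMap.det_toMatrix']
  have hd0 : L.det ≠ 0 := by
    change LinearMap.det (T.linear : (Fin n → ℝ) →ₗ[ℝ] (Fin n → ℝ)) ≠ 0
    exact (LinearEquiv.isUnit_det' T.linear).ne_zero
  have hd : 0 < |L.det| := abs_pos.2 hd0
  have hcv : ∀ g : (Fin n → ℝ) → ℝ, ∫ x in T '' K, g x = |L.det| * ∫ x in K, g (T x) := by
    intro g
    have hder : ∀ x ∈ K, HasFDerivWithinAt T L K x := by
      intro x _
      have h1 : HasFDerivAt (fun x => L x + T 0) L x := L.hasFDerivAt.add_const _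
      have h2 : (T : (Fin n → ℝ) → (Fin n → ℝ)) = fun x => L x + T 0 := funext hTL
      rw [h2]
      exact h1.hasFDerivWithinAt
    have h := integral_image_eq_integral_abs_det_fderiv_smul volume hK.measurableSet hder
      T.injective.injOn g
    rw [h]
    simp only [smul_eq_mul]
    rw [integral_const_mul]
  have hVf : volume K ≠ ∞ := hK.measure_lt_top.ne
  have hV0 : 0 < (volume K).toReal := ENNReal.toReal_pos hV hVf
  have hone : ∀ S : Set (Fin n → ℝ), ∫ _ in S, (1 : ℝ) = (volume S).toReal := by
    intro S
    rw [setIntegral_const, smul_eq_mul, mul_one]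
    rfl
  have hVT : (volume (T '' K)).toReal = |L.det| * (volume K).toReal := by
    rw [← hone, ← hone, hcv]
  have hint : ∀ i, IntegrableOn (fun x : Fin n → ℝ => x i) K volume := fun i =>
    (continuous_apply i).continuousOn.integrableOn_compact hK
  set c := centroid K with hc
  have hcen : ∀ i, centroid (T '' K) i = T c i := by
    intro i
    change (∫ x in T '' K, x i) / (volume (T '' K)).toReal = T c i
    rw [hVT, hcv]
    rw [mul_div_mul_left _ _ hd.ne']
    have h1 : ∫ x in K, T x i = (∑ j, M i j * (∫ x in K, x j)) + T 0 i * (volume K).toReal := by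
      have h2 : (fun x => T x i) = fun x => (∑ j, M i j * x j) + T 0 i := by
        funext x
        rw [hTL x, Pi.add_apply, hLM]
      rw [h2]
      rw [integral_add, integral_finsetSum, setIntegral_const, smul_eq_mul, mul_comm (T 0 i)]
      · congr 1
        apply Finset.sum_congr rfl
        intro j _
        rw [integral_const_mul]
      · intro j _
        exact (hint j).const_mul _
      · exact integrable_finsetSum _ (fun j _ => (hint j).const_mul _)
      · exact integrableOn_const hVf
    rw [h1, hTL c, Pi.add_apply, hLM, add_div, mul_div_cancel_right₀ _ hV0.ne', Finset.sum_div]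
    congr 1
    apply Finset.sum_congr rfl
    intro j _
    rw [mul_div_assoc]
    rfl
  have hint2 : ∀ i j, IntegrableOn (fun x : Fin n → ℝ => (x i - c i) * (x j - c j)) K volume :=
    fun i j => ContinuousOn.integrableOn_compact hK (by fun_prop)
  have hcov : covMat (T '' K) = M * covMat K * M.transpose := by
    ext i j
    have h1 : covMat (T '' K) i j
        = (∫ x in T '' K, (x i - centroid (T '' K) i) * (x j - centroid (T '' K) j))
          / (volume (T '' K)).toReal := rfl
    rw [h1, hVT, hcv, mul_div_mul_left _ _ hd.ne', hcen, hcen]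
    have h2 : ∀ x : Fin n → ℝ, ∀ i, T x i - T c i = ∑ k, M i k * (x k - c k) := by
      intro x i
      rw [hTL x, hTL c, Pi.add_apply, Pi.add_apply, hLM, hLM]
      simp only [mul_sub, Finset.sum_sub_distrib]
      ring
    simp only [h2]
    have h3 : ∀ x : Fin n → ℝ, (∑ k, M i k * (x k - c k)) * (∑ l, M j l * (x l - c l))
        = ∑ k, ∑ l, (M i k * M j l) * ((x k - c k) * (x l - c l)) := by
      intro x
      rw [Finset.sum_mul_sum]
      apply Finset.sum_congr rfl
      intro k _
      apply Finset.sum_congr rfl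
      intro l _
      ring
    simp only [h3]
    rw [integral_finsetSum _ (fun k _ => integrable_finsetSum _
      (fun l _ => (hint2 k l).const_mul _))]
    have h4 : ∀ k, ∫ x in K, ∑ l, (M i k * M j l) * ((x k - c k) * (x l - c l))
        = ∑ l, (M i k * M j l) * ∫ x in K, (x k - c k) * (x l - c l) := by
      intro k
      rw [integral_finsetSum _ (fun l _ => (hint2 k l).const_mul _)]
      apply Finset.sum_congr rfl
      intro l _
      rw [integral_const_mul]
    simp only [h4]
    rw [Matrix.mul_apply, Finset.sum_comm, Finset.sum_div]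
    apply Finset.sum_congr rfl
    intro l _
    rw [Matrix.mul_apply, Finset.sum_mul, Finset.sum_div]
    apply Finset.sum_congr rfl
    intro k _
    rw [Matrix.transpose_apply]
    change _ = M i k * ((∫ x in K, (x k - c k) * (x l - c l)) / (volume K).toReal) * M j l
    ring
  unfold isoConst
  rw [hcov, Matrix.det_mul, Matrix.det_mul, Matrix.det_transpose, hVT, ← hdet]
  congr 1
  rw [mul_pow, sq_abs]
  have h5 : L.det ^ 2 ≠ 0 := pow_ne_zero _ hd0
  have h6 : (volume K).toReal ^ 2 ≠ 0 := pow_ne_zero _ hV0.ne'
  field_simp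

end Vale.Agent.P254
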