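import Vale.Agent.P254.Sc3

open MeasureTheory Set
open scoped ENNReal

namespace Vale.Agent.P254

private theorem bw2_meas {n : ℕ} {A : Set (Fin (n + 1) → ℝ)} (hA : MeasurableSet A) :
    Measurable fun q : ℝ × ℝ =>
      volume {x : Fin n → ℝ | (fun i => q.2⁻¹ * (Fin.cons q.1 x : Fin (n + 1) → ℝ) i) ∈ A} := by
  have h1 : Measurable fun r : (ℝ × ℝ) × (Fin n → ℝ) =>
      (fun i => r.1.2⁻¹ * (Fin.cons r.1.1 r.2 : Fin (n + 1) → ℝ) i) := by
    refine measurable_pi_lambda _ fun i => ?_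
    refine (measurable_snd.comp measurable_fst).inv.mul ?_
    refine Fin.cases ?_ (fun j => ?_) i
    · simp only [Fin.cons_zero]
      exact measurable_fst.comp measurable_fst
    · simp only [Fin.cons_succ]
      exact (measurable_pi_apply j).comp measurable_snd
  exact measurable_measure_prodMk_left (ν := (volume : Measure (Fin n → ℝ))) (h1 hA)

private theorem bw2_vol {n : ℕ} (A : Set (Fin (n + 1) → ℝ)) {s : ℝ} (hs : 0 < s) (t : ℝ) :
    volume {x : Fin n → ℝ | (fun i => s⁻¹ * (Fin.cons t x : Fin (n + 1) → ℝ) i) ∈ A} =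
      ENNReal.ofReal s ^ n * sv A (s⁻¹ * t) := by
  have h1 : {x : Fin n → ℝ | (fun i => s⁻¹ * (Fin.cons t x : Fin (n + 1) → ℝ) i) ∈ A} =
      (fun x => s⁻¹ • x) ⁻¹' sect A (s⁻¹ * t) := by
    ext x
    simp only [mem_ofPred_eq, mem_preimage, sect]
    have e : (fun i => s⁻¹ * (Fin.cons t x : Fin (n + 1) → ℝ) i) =
        (Fin.cons (s⁻¹ * t) (s⁻¹ • x) : Fin (n + 1) → ℝ) := by
      funext i
      refine Fin.cases ?_ (fun j => ?_) i
      · simp
      · simp
    rw [e]
  rw [h1, Measure.addHaar_preimage_smul volume (inv_ne_zero hs.ne')]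
  unfold sv
  congr 1
  rw [Module.finrank_fin_fun, inv_pow, inv_inv, abs_of_nonneg (by positivity),
    ENNReal.ofReal_pow hs.le]

private theorem bw2_scale {f : ℝ → ℝ≥0∞} (hf : Measurable f) {s : ℝ} (hs : 0 < s) :
    ∫⁻ t in Ioi (0 : ℝ), f (s⁻¹ * t) = ENNReal.ofReal s * ∫⁻ t in Ioi (0 : ℝ), f t := by
  have h := Real.smul_map_volume_mul_left (a := s) hs.ne'
  have h1 : ∫⁻ t in Ioi (0 : ℝ), f (s⁻¹ * t) =
      ∫⁻ t, (Ioi (0 : ℝ)).indicator (fun t => f (s⁻¹ * t)) t :=
    (lintegral_indicator measurableSet_Ioi _).symm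
  have hm : Measurable ((Ioi (0 : ℝ)).indicator (fun t => f (s⁻¹ * t))) :=
    (hf.comp (measurable_const.mul measurable_id)).indicator measurableSet_Ioi
  rw [h1]
  conv_lhs => rw [← h]
  have hmul : Measurable fun t : ℝ => s * t := measurable_const_mul s
  rw [lintegral_smul_measure, lintegral_map hm hmul, smul_eq_mul,
    abs_of_pos hs, ← lintegral_indicator measurableSet_Ioi]
  congr 1
  refine lintegral_congr fun t => ?_
  by_cases ht : 0 < t
  · rw [indicator_of_mem (show t ∈ Ioi (0 : ℝ) from ht),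
      indicator_of_mem (show s * t ∈ Ioi (0 : ℝ) from mul_pos hs ht)]
    rw [← mul_assoc, inv_mul_cancel₀ hs.ne', one_mul]
  · rw [indicator_of_notMem (show t ∉ Ioi (0 : ℝ) from ht), indicator_of_notMem]
    intro h2
    exact ht ((mul_pos_iff_of_pos_left hs).1 h2)

private theorem bw2_gamma (m : ℕ) :
    ∫⁻ s in Ioi (0 : ℝ), ENNReal.ofReal (Real.exp (-s)) * ENNReal.ofReal s ^ m =
      (m.factorial : ℝ≥0∞) := by
  have hG : ∫ s in Ioi (0 : ℝ), Real.exp (-s) * s ^ m = (m.factorial : ℝ) := by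
    rw [← Real.Gamma_nat_eq_factorial, Real.Gamma_eq_integral (by positivity)]
    refine setIntegral_congr_fun measurableSet_Ioi fun s _ => ?_
    simp only [add_sub_cancel_right, Real.rpow_natCast]
  have hI : IntegrableOn (fun s : ℝ => Real.exp (-s) * s ^ m) (Ioi 0) := by
    have h := Real.GammaIntegral_convergent (s := (m : ℝ) + 1) (by positivity)
    refine h.congr_fun (fun s _ => ?_) measurableSet_Ioi
    simp only [add_sub_cancel_right, Real.rpow_natCast]
  have h2 : ∫⁻ s in Ioi (0 : ℝ), ENNReal.ofReal (Real.exp (-s)) * ENNReal.ofReal s ^ m =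
      ∫⁻ s in Ioi (0 : ℝ), ENNReal.ofReal (Real.exp (-s) * s ^ m) := by
    refine setLIntegral_congr_fun measurableSet_Ioi fun s hs => ?_
    rw [ENNReal.ofReal_mul (Real.exp_pos _).le, ENNReal.ofReal_pow (le_of_lt hs)]
  rw [h2, ← ofReal_integral_eq_lintegral_ofReal hI, hG, ENNReal.ofReal_natCast]
  refine (ae_restrict_iff' measurableSet_Ioi).2 (Filter.Eventually.of_forall fun s hs => ?_)
  exact mul_nonneg (Real.exp_pos _).le (pow_nonneg (le_of_lt hs) _)

/-- BW2. Tonelli and scaling: `∫_(0,∞) t^p gm A t dt = ∫ e^(-s) ∫_(s A) x_0^p = ∫ e^(-s) s^(n+1+p)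
∫_A x_0^p = (n + 1 + p)! ∫_A x_0^p`. -/
theorem gm_moment {n : ℕ} {A : Set (Fin (n + 1) → ℝ)} (hA : Corner A) (p : ℕ) :
    ∫⁻ t in Ioi (0 : ℝ), ENNReal.ofReal t ^ p * gm A t =
      ((n + 1 + p).factorial : ℝ≥0∞) * ∫⁻ x in A, ENNReal.ofReal (x 0) ^ p := by
  have hAm : MeasurableSet A := hA.compact.isClosed.measurableSet
  have hcons : Measurable fun q : ℝ × (Fin n → ℝ) => (Fin.cons q.1 q.2 : Fin (n + 1) → ℝ) := by
    refine measurable_pi_lambda _ fun i => ?_
    refine Fin.cases ?_ (fun j => ?_) i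
    · simpa using measurable_fst
    · simp only [Fin.cons_succ]
      exact (measurable_pi_apply j).comp measurable_snd
  have hsv : Measurable (sv A) :=
    measurable_measure_prodMk_left (ν := (volume : Measure (Fin n → ℝ))) (hcons hAm)
  -- the moment of the sections
  have hsec : ∫⁻ t in Ioi (0 : ℝ), ENNReal.ofReal t ^ p * sv A t =
      ∫⁻ x in A, ENNReal.ofReal (x 0) ^ p := by
    have hf : Measurable fun x : Fin (n + 1) → ℝ => ENNReal.ofReal (x 0) ^ p :=
      (ENNReal.measurable_ofReal.comp (measurable_pi_apply 0)).pow_const p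
    rw [lintegral_sect hA hf]
    refine setLIntegral_congr_fun measurableSet_Ioi fun t _ => ?_
    simp only [Fin.cons_zero, lintegral_const, Measure.restrict_apply MeasurableSet.univ,
      univ_inter]
    rfl
  -- Tonelli
  have hsw : ∫⁻ t in Ioi (0 : ℝ), ENNReal.ofReal t ^ p * gm A t =
      ∫⁻ s in Ioi (0 : ℝ), ∫⁻ t in Ioi (0 : ℝ), ENNReal.ofReal t ^ p *
        (ENNReal.ofReal (Real.exp (-s)) *
          volume {x : Fin n → ℝ | (fun i => s⁻¹ * (Fin.cons t x : Fin (n + 1) → ℝ) i) ∈ A}) := by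
    have hm : Measurable fun q : ℝ × ℝ => ENNReal.ofReal q.1 ^ p *
        (ENNReal.ofReal (Real.exp (-q.2)) *
          volume {x : Fin n → ℝ |
            (fun i => q.2⁻¹ * (Fin.cons q.1 x : Fin (n + 1) → ℝ) i) ∈ A}) := by
      refine ((ENNReal.measurable_ofReal.comp measurable_fst).pow_const p).mul ?_
      refine Measurable.mul ?_ (bw2_meas hAm)
      exact ENNReal.measurable_ofReal.comp
        (Real.measurable_exp.comp (measurable_neg.comp measurable_snd))
    rw [← lintegral_lintegral_swap hm.aemeasurable]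
    refine lintegral_congr fun t => ?_
    have hm1 : Measurable fun s : ℝ => ENNReal.ofReal (Real.exp (-s)) *
          volume {x : Fin n → ℝ |
            (fun i => s⁻¹ * (Fin.cons t x : Fin (n + 1) → ℝ) i) ∈ A} := by
      refine Measurable.mul ?_ ((bw2_meas hAm).comp (measurable_const.prodMk measurable_id))
      exact ENNReal.measurable_ofReal.comp (Real.measurable_exp.comp measurable_neg)
    unfold gm
    rw [lintegral_const_mul _ hm1]
  rw [hsw]
  have hin : ∀ s ∈ Ioi (0 : ℝ), ∫⁻ t in Ioi (0 : ℝ), ENNReal.ofReal t ^ p *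
        (ENNReal.ofReal (Real.exp (-s)) *
          volume {x : Fin n → ℝ | (fun i => s⁻¹ * (Fin.cons t x : Fin (n + 1) → ℝ) i) ∈ A}) =
      ENNReal.ofReal (Real.exp (-s)) * ENNReal.ofReal s ^ (n + 1 + p) *
        ∫⁻ x in A, ENNReal.ofReal (x 0) ^ p := by
    intro s hs
    have hs0 : 0 < s := hs
    have hF : Measurable fun t : ℝ => ENNReal.ofReal t ^ p * sv A t :=
      (ENNReal.measurable_ofReal.pow_const p).mul hsv
    have e1 : ∫⁻ t in Ioi (0 : ℝ), ENNReal.ofReal t ^ p *
        (ENNReal.ofReal (Real.exp (-s)) *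
          volume {x : Fin n → ℝ | (fun i => s⁻¹ * (Fin.cons t x : Fin (n + 1) → ℝ) i) ∈ A}) =
        ∫⁻ t in Ioi (0 : ℝ), (ENNReal.ofReal (Real.exp (-s)) * ENNReal.ofReal s ^ (n + p)) *
          (ENNReal.ofReal (s⁻¹ * t) ^ p * sv A (s⁻¹ * t)) := by
      refine setLIntegral_congr_fun measurableSet_Ioi fun t _ => ?_
      rw [bw2_vol A hs0 t]
      have e2 : ENNReal.ofReal t = ENNReal.ofReal s * ENNReal.ofReal (s⁻¹ * t) := by
        rw [← ENNReal.ofReal_mul hs0.le, ← mul_assoc, mul_inv_cancel₀ hs0.ne', one_mul]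
      rw [e2]
      generalize ENNReal.ofReal (s⁻¹ * t) = a
      ring
    have hF2 : Measurable fun t : ℝ => ENNReal.ofReal (s⁻¹ * t) ^ p * sv A (s⁻¹ * t) :=
      hF.comp (measurable_const_mul s⁻¹)
    rw [e1, lintegral_const_mul _ hF2, bw2_scale hF hs0, hsec]
    ring
  rw [setLIntegral_congr_fun measurableSet_Ioi hin, lintegral_mul_const, bw2_gamma]
  refine Measurable.mul ?_ (ENNReal.measurable_ofReal.pow_const _)
  exact ENNReal.measurable_ofReal.comp (Real.measurable_exp.comp measurable_neg)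

end Vale.Agent.P254
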