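import Vale.Agent.P254.Nbu
import Vale.Agent.P254.Bw1
import Vale.Agent.P254.Bw2

open MeasureTheory Set
open scoped ENNReal

namespace Vale.Agent.P254

/-- BW3. `second_moment (gm_LC hA)` and `gm_moment` for `p = 0, 1, 2`; cancel the factorials. -/
theorem berwald {n : ℕ} {A : Set (Fin (n + 1) → ℝ)} (hA : Corner A) :
    ((n : ℝ≥0∞) + 3) * (volume A * ∫⁻ x in A, ENNReal.ofReal (x 0) ^ 2) ≤
      2 * ((n : ℝ≥0∞) + 2) * (∫⁻ x in A, ENNReal.ofReal (x 0)) ^ 2 := by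
  have h := second_moment (gm_LC hA)
  have h0 := gm_moment hA 0
  have h1 := gm_moment hA 1
  have h2 := gm_moment hA 2
  simp only [pow_zero, one_mul, lintegral_const, Measure.restrict_apply MeasurableSet.univ,
    univ_inter, add_zero] at h0
  simp only [pow_one] at h1
  rw [h0, h1, h2] at h
  set V := volume A
  set Q := ∫⁻ x in A, ENNReal.ofReal (x 0) ^ 2
  set m := ∫⁻ x in A, ENNReal.ofReal (x 0)
  have f1 : ((n + 1 + 1).factorial : ℝ≥0∞) = ((n : ℝ≥0∞) + 2) * ((n + 1).factorial : ℝ≥0∞) := by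
    rw [Nat.factorial_succ (n + 1)]
    push_cast
    ring
  have f2 : ((n + 1 + 2).factorial : ℝ≥0∞)
      = ((n : ℝ≥0∞) + 3) * ((n + 1 + 1).factorial : ℝ≥0∞) := by
    rw [Nat.factorial_succ (n + 1 + 1)]
    push_cast
    ring
  have a0 : ((n + 1).factorial : ℝ≥0∞) ≠ 0 := by exact_mod_cast (Nat.factorial_pos _).ne'
  have a1 : ((n + 1).factorial : ℝ≥0∞) ≠ ∞ := ENNReal.natCast_ne_top _
  have b0 : ((n + 1 + 1).factorial : ℝ≥0∞) ≠ 0 := by exact_mod_cast (Nat.factorial_pos _).ne'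
  have b1 : ((n + 1 + 1).factorial : ℝ≥0∞) ≠ ∞ := ENNReal.natCast_ne_top _
  set F := ((n + 1).factorial : ℝ≥0∞)
  set F' := ((n + 1 + 1).factorial : ℝ≥0∞)
  have hFF0 : F * F' ≠ 0 := mul_ne_zero a0 b0
  have hFF1 : F * F' ≠ ∞ := ENNReal.mul_ne_top a1 b1
  rw [← ENNReal.mul_le_mul_iff_right hFF0 hFF1]
  calc F * F' * (((n : ℝ≥0∞) + 3) * (V * Q)) = F * V * ((((n : ℝ≥0∞) + 3) * F') * Q) := by ring
    _ ≤ 2 * (F' * m) ^ 2 := by rw [← f2]; exact h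
    _ = 2 * (F' * (F' * m ^ 2)) := by ring
    _ = 2 * (F' * ((((n : ℝ≥0∞) + 2) * F) * m ^ 2)) := by rw [← f1]
    _ = F * F' * (2 * ((n : ℝ≥0∞) + 2) * m ^ 2) := by ring

end Vale.Agent.P254
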