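import Vale.Agent.P254.Defs

open MeasureTheory Set
open scoped ENNReal

namespace Vale.Agent.P254

/-- sign flip of the coordinates -/
def covFlip {n : ℕ} (ε : Fin n → ℝ) (hε : ∀ i, ε i = 1 ∨ ε i = -1) :
    (Fin n → ℝ) ≃ᵐ (Fin n → ℝ) where
  toFun x := fun i => ε i * x i
  invFun x := fun i => ε i * x i
  left_inv x := by
    funext i
    rcases hε i with h | h <;> simp [h]
  right_inv x := by
    funext i
    rcases hε i with h | h <;> simp [h]
  measurable_toFun := by
    apply measurable_pi_lambda
    intro i
    exact (measurable_pi_apply i).const_mul _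
  measurable_invFun := by
    apply measurable_pi_lambda
    intro i
    exact (measurable_pi_apply i).const_mul _

theorem covFlip_mp {n : ℕ} (ε : Fin n → ℝ) (hε : ∀ i, ε i = 1 ∨ ε i = -1) :
    MeasurePreserving (covFlip ε hε) (volume : Measure (Fin n → ℝ)) volume := by
  have h : ∀ i, MeasurePreserving (fun t : ℝ => ε i * t) volume volume := by
    intro i
    rcases hε i with h | h
    · rw [h]
      simp only [one_mul]
      exact MeasurePreserving.id _
    · rw [h]
      simp only [neg_one_mul]
      exact Measure.measurePreserving_neg volume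
  exact volume_preserving_pi h

theorem cov_flip_int {n : ℕ} {K : Set (Fin n → ℝ)} (hs : OneSymmetric K) (ε : Fin n → ℝ)
    (hε : ∀ i, ε i = 1 ∨ ε i = -1) (f : (Fin n → ℝ) → ℝ) :
    ∫ x in K, f (fun i => ε i * x i) = ∫ x in K, f x := by
  have h1 := (covFlip_mp ε hε).setIntegral_preimage_emb (covFlip ε hε).measurableEmbedding f K
  have h2 : (covFlip ε hε) ⁻¹' K = K := by
    ext x
    constructor
    · intro hx
      have h3 := hs _ hx (Equiv.refl _) ε hε
      have h4 : (fun i => ε i * (covFlip ε hε) x ((Equiv.refl (Fin n)) i)) = x := by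
        funext i
        change ε i * (ε i * x i) = x i
        rcases hε i with h | h <;> simp [h]
      rwa [h4] at h3
    · intro hx
      exact hs x hx (Equiv.refl _) ε hε
  rw [h2] at h1
  exact h1

theorem cov_perm_int {n : ℕ} {K : Set (Fin n → ℝ)} (hs : OneSymmetric K)
    (σ : Equiv.Perm (Fin n)) (f : (Fin n → ℝ) → ℝ) :
    ∫ x in K, f (fun i => x (σ i)) = ∫ x in K, f x := by
  let e : (Fin n → ℝ) ≃ᵐ (Fin n → ℝ) := MeasurableEquiv.piCongrLeft (fun _ : Fin n => ℝ) σ.symm
  have he : ∀ x : Fin n → ℝ, e x = fun i => x (σ i) := by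
    intro x
    funext i
    have h := MeasurableEquiv.piCongrLeft_apply_apply σ.symm (β := fun _ : Fin n => ℝ) x (σ i)
    simpa using h
  have hm : MeasurePreserving e volume volume :=
    volume_measurePreserving_piCongrLeft (fun _ : Fin n => ℝ) σ.symm
  have h1 := hm.setIntegral_preimage_emb e.measurableEmbedding f K
  have h2 : e ⁻¹' K = K := by
    ext x
    rw [mem_preimage, he]
    constructor
    · intro hx
      have h3 := hs _ hx σ.symm (fun _ => 1) (fun _ => Or.inl rfl)
      have h4 : (fun i => (1 : ℝ) * (fun i => x (σ i)) (σ.symm i)) = x := by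
        funext i
        simp
      rwa [h4] at h3
    · intro hx
      have h3 := hs x hx σ (fun _ => 1) (fun _ => Or.inl rfl)
      simpa using h3
  rw [h2] at h1
  simp only [he] at h1
  exact h1

/-- COV. The centroid vanishes, the off-diagonal entries vanish (sign changes), the diagonal
entries are equal (permutations). -/
theorem isoConst_oneSym {n : ℕ} {K : Set (Fin (n + 1) → ℝ)} (hK : IsBody K)
    (hs : OneSymmetric K) :
    isoConst K = (((∫ x in K, (x 0) ^ 2) / (volume K).toReal) ^ (n + 1) /
      (volume K).toReal ^ 2) ^ (1 / (2 * ((n + 1 : ℕ) : ℝ))) := by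
  classical
  have hflip : ∀ i j : Fin (n + 1),
      (if j = i then (-1 : ℝ) else 1) = 1 ∨ (if j = i then (-1 : ℝ) else 1) = -1 := by
    intro i j
    split_ifs
    · exact Or.inr rfl
    · exact Or.inl rfl
  have hc : ∀ i, centroid K i = 0 := by
    intro i
    have h := cov_flip_int hs (fun j => if j = i then (-1 : ℝ) else 1) (hflip i) (fun x => x i)
    simp only [if_true, neg_one_mul] at h
    rw [integral_neg] at h
    have h0 : ∫ x in K, x i = 0 := by linarith
    unfold centroid
    rw [h0, zero_div]
  have hoff : ∀ i j, i ≠ j → ∫ x in K, x i * x j = 0 := by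
    intro i j hij
    have h := cov_flip_int hs (fun j => if j = i then (-1 : ℝ) else 1) (hflip i)
      (fun x => x i * x j)
    simp only [if_true, if_neg hij.symm, neg_one_mul, one_mul, neg_mul] at h
    rw [integral_neg] at h
    linarith
  have hdiag : ∀ i, ∫ x in K, x i * x i = ∫ x in K, (x 0) ^ 2 := by
    intro i
    have h := cov_perm_int hs (Equiv.swap 0 i) (fun x => (x 0) ^ 2)
    simp only [Equiv.swap_apply_left] at h
    rw [← h]
    congr 1
    funext x
    ring
  have hM : covMat K = Matrix.diagonal
      (fun _ => (∫ x in K, (x 0) ^ 2) / (volume K).toReal) := by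
    ext i j
    unfold covMat
    rw [Matrix.of_apply, Matrix.diagonal_apply]
    simp only [hc, sub_zero]
    split_ifs with h
    · subst h
      rw [hdiag]
    · rw [hoff i j h, zero_div]
  unfold isoConst
  rw [hM, Matrix.det_diagonal, Finset.prod_const, Finset.card_univ, Fintype.card_fin]

end Vale.Agent.P254
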