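import Vale.Agent.P254.Defs

open MeasureTheory Set
open scoped ENNReal

namespace Vale.Agent.P254

private theorem crn_flip {n : ℕ} {K : Set (Fin n → ℝ)} (hs : OneSymmetric K) {z : Fin n → ℝ}
    (hz : z ∈ K) (j : Fin n) : Function.update z j (-z j) ∈ K := by
  have h := hs z hz 1 (Function.update (fun _ => 1) j (-1)) (by
    intro i
    by_cases hi : i = j
    · subst hi; right; simp
    · left; simp [hi])
  convert h using 1
  funext i
  by_cases hi : i = j
  · subst hi; simp
  · simp [hi]

private theorem crn_step {n : ℕ} {K : Set (Fin n → ℝ)} (hc : Convex ℝ K) (hs : OneSymmetric K)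
    {z : Fin n → ℝ} (hz : z ∈ K) (j : Fin n) {t : ℝ} (h0 : 0 ≤ t) (h1 : t ≤ z j) :
    Function.update z j t ∈ K := by
  rcases eq_or_lt_of_le (h0.trans h1) with h | h
  · have ht : t = z j := le_antisymm h1 (by rw [← h]; exact h0)
    rw [ht, Function.update_eq_self]
    exact hz
  · have hθ0 : 0 ≤ (z j + t) / (2 * z j) := by positivity
    have hθ1 : 0 ≤ (z j - t) / (2 * z j) := div_nonneg (by linarith) (by positivity)
    have hsum : (z j + t) / (2 * z j) + (z j - t) / (2 * z j) = 1 := by
      field_simp; ring
    have := hc hz (crn_flip hs hz j) hθ0 hθ1 hsum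
    convert this using 1
    funext i
    by_cases hi : i = j
    · subst hi
      simp only [Function.update_self, Pi.add_apply, Pi.smul_apply, smul_eq_mul]
      field_simp
      ring
    · simp only [Function.update_of_ne hi, Pi.add_apply, Pi.smul_apply, smul_eq_mul]
      rw [← add_mul, hsum, one_mul]

/-- CRN. Down-closed: if `0 ≤ y ≤ x ∈ K` then `y` is a convex combination of sign changes of `x`
(change one coordinate at a time). -/
theorem pos_corner {n : ℕ} {K : Set (Fin n → ℝ)} (hK : IsBody K) (hs : OneSymmetric K) :
    Corner (pos K) where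
  compact := by
    apply hK.1.inter_right
    have : {x : Fin n → ℝ | ∀ i, 0 ≤ x i} = ⋂ i, {x | 0 ≤ x i} := by
      ext x; simp
    rw [this]
    exact isClosed_iInter fun i => isClosed_le continuous_const (continuous_apply i)
  convex := by
    apply hK.2.1.inter
    intro x hx y hy a b ha hb _ i
    have h1 := hx i
    have h2 := hy i
    simp only [Pi.add_apply, Pi.smul_apply, smul_eq_mul]
    positivity
  nonneg := fun x hx => hx.2
  down := by
    intro x hx y hy0 hyx
    refine ⟨?_, hy0⟩
    have key : ∀ s : Finset (Fin n), (fun i => if i ∈ s then y i else x i) ∈ K := by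
      intro s
      induction s using Finset.induction_on with
      | empty => simpa using hx.1
      | insert j s hj ih =>
        have h := crn_step hK.2.1 hs ih j (t := y j) (hy0 j) (by simpa [hj] using hyx j)
        convert h using 1
        funext i
        by_cases hi : i = j
        · subst hi; simp
        · simp [hi]
    simpa using key Finset.univ
  symm := by
    intro x hx σ
    refine ⟨?_, fun i => hx.2 (σ i)⟩
    have := hs x hx.1 σ (fun _ => 1) (fun _ => Or.inl rfl)
    simpa using this

end Vale.Agent.P254
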