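import Vale.Agent.P254.Haz

open MeasureTheory Set
open scoped ENNReal

namespace Vale.Agent.P254

theorem DBL_pair {a b S U : ℝ≥0∞} (hab : a ≤ b) (h : S * b ≤ U * a) :
    U * a ^ 2 + S * b ^ 2 ≤ (U + S) * (b * a) := by
  obtain ⟨d, rfl⟩ := exists_add_of_le hab
  calc U * a ^ 2 + S * (a + d) ^ 2
      = U * a ^ 2 + S * (a + d) * a + (S * (a + d)) * d := by ring
    _ ≤ U * a ^ 2 + S * (a + d) * a + (U * a) * d := by gcongr
    _ = (U + S) * ((a + d) * a) := by ring

theorem DBL_tail_meas {g : ℝ → ℝ≥0∞} (hg : Measurable g) : Measurable (tail g) := by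
  unfold tail
  have : Measurable (fun p : ℝ × ℝ => g (p.1 + p.2)) :=
    hg.comp (measurable_fst.add measurable_snd)
  exact this.lintegral_prod_right'

theorem DBL_tail_ioi (g : ℝ → ℝ≥0∞) {t : ℝ} (ht : 0 < t) :
    tail g t = ∫⁻ u in Ioi (0 : ℝ), (Ioi t).indicator g u := by
  unfold tail
  rw [← lintegral_indicator measurableSet_Ioi, ← lintegral_indicator measurableSet_Ioi]
  rw [← lintegral_add_left_eq_self (fun u => (Ioi (0:ℝ)).indicator ((Ioi t).indicator g) u) t]
  congr 1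
  ext x
  simp only [indicator, mem_Ioi]
  by_cases hx : 0 < x
  · have h1 : 0 < t + x := by linarith
    have h2 : t < t + x := by linarith
    simp [hx, h1]
  · have h2 : ¬ t < t + x := by linarith
    simp [hx]

theorem DBL_tail_int {g : ℝ → ℝ≥0∞} (hg : Measurable g) (k : ℝ → ℝ≥0∞) (hk : Measurable k) :
    ∫⁻ t in Ioi (0 : ℝ), k t * tail g t =
      ∫⁻ u in Ioi (0 : ℝ), (∫⁻ t in Ioi (0 : ℝ), (Iio u).indicator k t) * g u := by
  have hm : Measurable (fun p : ℝ × ℝ => k p.1 * (Ioi p.1).indicator g p.2) := by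
    refine (hk.comp measurable_fst).mul ?_
    have : (fun p : ℝ × ℝ => (Ioi p.1).indicator g p.2) =
        ({p : ℝ × ℝ | p.1 < p.2}).indicator (fun p => g p.2) := by
      ext p
      simp [indicator]
    rw [this]
    exact (hg.comp measurable_snd).indicator (measurableSet_lt measurable_fst measurable_snd)
  calc ∫⁻ t in Ioi (0 : ℝ), k t * tail g t
      = ∫⁻ t in Ioi (0 : ℝ), ∫⁻ u in Ioi (0 : ℝ), k t * (Ioi t).indicator g u := by
        refine setLIntegral_congr_fun measurableSet_Ioi (fun t ht => ?_)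
        rw [DBL_tail_ioi g ht, lintegral_const_mul _ (hg.indicator measurableSet_Ioi)]
    _ = ∫⁻ u in Ioi (0 : ℝ), ∫⁻ t in Ioi (0 : ℝ), k t * (Ioi t).indicator g u :=
        lintegral_lintegral_swap hm.aemeasurable
    _ = _ := by
        refine setLIntegral_congr_fun measurableSet_Ioi (fun u hu => ?_)
        rw [← lintegral_mul_const _ (hk.indicator measurableSet_Iio)]
        congr 1
        ext t
        by_cases h : t < u
        · simp [indicator, h]
        · simp [indicator, h]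

/-- DBL. `∫ t g = ∫ tail g` over `(0, ∞)` (Tonelli).  For a.e. `0 < t ≤ s` (`hazard`)
`tail t * g s ^ 2 + tail s * g t ^ 2 ≤ (tail t + tail s) * (g t * g s)`: write `g t = g s + d`
(no subtraction needed). Integrate over all pairs `(t, s)` (symmetric), and
`2 ∫ tail g * g ≤ (∫ g)^2` since `{s > t}` and `{t > s}` are disjoint. -/
theorem double_int {g : ℝ → ℝ≥0∞} (h : LC g) :
    2 * (∫⁻ t in Ioi (0 : ℝ), ENNReal.ofReal t * g t) * (∫⁻ t in Ioi (0 : ℝ), g t ^ 2) ≤
      (∫⁻ t in Ioi (0 : ℝ), g t) ^ 3 := by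
  have hg : Measurable g := h.meas
  have hT : Measurable (tail g) := DBL_tail_meas hg
  have hg2 : Measurable (fun t => g t ^ 2) := hg.pow_const 2
  have hgT : Measurable (fun t => g t * tail g t) := hg.mul hT
  set μ : Measure ℝ := volume.restrict (Ioi (0 : ℝ)) with hμ
  -- first identity
  have e1 : ∫⁻ t, ENNReal.ofReal t * g t ∂μ = ∫⁻ t, tail g t ∂μ := by
    have := DBL_tail_int hg (fun _ => 1) measurable_const
    simp only [one_mul] at this
    rw [hμ, this]
    refine setLIntegral_congr_fun measurableSet_Ioi (fun u hu => ?_)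
    congr 1
    rw [lintegral_indicator measurableSet_Iio, Measure.restrict_restrict measurableSet_Iio]
    have : Iio u ∩ Ioi (0:ℝ) = Ioo 0 u := by
      ext x; simp [and_comm]
    rw [this]
    simp
  -- second: twice the integral of tail g * g
  have e2 : 2 * ∫⁻ t, g t * tail g t ∂μ ≤ (∫⁻ t, g t ∂μ) ^ 2 := by
    have e3 := DBL_tail_int hg g hg
    have e4 : ∫⁻ t, g t * tail g t ∂μ = ∫⁻ t, (∫⁻ u, (Ioi t).indicator g u ∂μ) * g t ∂μ := by
      refine setLIntegral_congr_fun measurableSet_Ioi (fun t ht => ?_)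
      rw [DBL_tail_ioi g ht, mul_comm]
    calc 2 * ∫⁻ t, g t * tail g t ∂μ
        = ∫⁻ t, g t * tail g t ∂μ + ∫⁻ t, g t * tail g t ∂μ := two_mul _
      _ = ∫⁻ t, (∫⁻ u, (Iio t).indicator g u ∂μ) * g t ∂μ +
            ∫⁻ t, (∫⁻ u, (Ioi t).indicator g u ∂μ) * g t ∂μ := by
          rw [← e4]
          congr 1
      _ ≤ ∫⁻ t, ((∫⁻ u, (Iio t).indicator g u ∂μ) * g t +
            (∫⁻ u, (Ioi t).indicator g u ∂μ) * g t) ∂μ := le_lintegral_add _ _
      _ ≤ ∫⁻ t, (∫⁻ u, g u ∂μ) * g t ∂μ := by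
          refine lintegral_mono (fun t => ?_)
          rw [← add_mul]
          gcongr
          rw [← lintegral_add_left (hg.indicator measurableSet_Iio)]
          refine lintegral_mono (fun u => ?_)
          rcases lt_trichotomy u t with hut | hut | hut
          · simp [indicator, hut, not_lt.mpr hut.le]
          · simp [indicator, hut]
          · simp [indicator, hut, not_lt.mpr hut.le]
      _ = (∫⁻ t, g t ∂μ) ^ 2 := by
          rw [lintegral_const_mul _ hg, sq]
  -- pair inequality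
  have hG : ∀ᵐ s ∂μ, 0 < s ∧ ∀ t, 0 < t → t ≤ s → tail g s * g t ≤ tail g t * g s := by
    rw [hμ, ae_restrict_iff' measurableSet_Ioi]
    filter_upwards [hazard h] with s hs h0
    exact ⟨h0, hs h0⟩
  have hP : ∀ᵐ s ∂μ, ∀ᵐ t ∂μ, tail g t * g s ^ 2 + tail g s * g t ^ 2 ≤
      (tail g t + tail g s) * (g t * g s) := by
    filter_upwards [hG] with s hs
    filter_upwards [hG] with t ht
    rcases le_total t s with hts | hst
    · exact DBL_pair (h.anti t s ht.1 hts) (hs.2 t ht.1 hts)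
    · have := DBL_pair (h.anti s t hs.1 hst) (ht.2 s hs.1 hst)
      calc tail g t * g s ^ 2 + tail g s * g t ^ 2
          = tail g s * g t ^ 2 + tail g t * g s ^ 2 := add_comm _ _
        _ ≤ (tail g s + tail g t) * (g s * g t) := this
        _ = _ := by rw [add_comm (tail g s), mul_comm (g s)]
  have hL : ∫⁻ s, ∫⁻ t, (tail g t * g s ^ 2 + tail g s * g t ^ 2) ∂μ ∂μ =
      2 * (∫⁻ t, tail g t ∂μ) * (∫⁻ t, g t ^ 2 ∂μ) := by
    calc ∫⁻ s, ∫⁻ t, (tail g t * g s ^ 2 + tail g s * g t ^ 2) ∂μ ∂μ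
        = ∫⁻ s, ((∫⁻ t, tail g t ∂μ) * g s ^ 2 + tail g s * (∫⁻ t, g t ^ 2 ∂μ)) ∂μ := by
          congr 1
          ext s
          rw [lintegral_add_left (hT.mul_const _), lintegral_mul_const _ hT,
            lintegral_const_mul _ hg2]
      _ = _ := by
          rw [lintegral_add_left (hg2.const_mul _), lintegral_const_mul _ hg2,
            lintegral_mul_const _ hT]
          ring
  have hR : ∫⁻ s, ∫⁻ t, ((tail g t + tail g s) * (g t * g s)) ∂μ ∂μ =
      (2 * ∫⁻ t, g t * tail g t ∂μ) * (∫⁻ t, g t ∂μ) := by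
    calc ∫⁻ s, ∫⁻ t, ((tail g t + tail g s) * (g t * g s)) ∂μ ∂μ
        = ∫⁻ s, ((∫⁻ t, g t * tail g t ∂μ) * g s + (g s * tail g s) * (∫⁻ t, g t ∂μ)) ∂μ := by
          congr 1
          ext s
          have : ∀ t, (tail g t + tail g s) * (g t * g s) =
              (g t * tail g t) * g s + (g s * tail g s) * g t := fun t => by ring
          simp_rw [this]
          rw [lintegral_add_left (hgT.mul_const _), lintegral_mul_const _ hgT,
            lintegral_const_mul _ hg]
      _ = _ := by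
          rw [lintegral_add_left (hg.const_mul _), lintegral_const_mul _ hg,
            lintegral_mul_const _ hgT]
          ring
  calc 2 * (∫⁻ t, ENNReal.ofReal t * g t ∂μ) * (∫⁻ t, g t ^ 2 ∂μ)
      = 2 * (∫⁻ t, tail g t ∂μ) * (∫⁻ t, g t ^ 2 ∂μ) := by rw [e1]
    _ = ∫⁻ s, ∫⁻ t, (tail g t * g s ^ 2 + tail g s * g t ^ 2) ∂μ ∂μ := hL.symm
    _ ≤ ∫⁻ s, ∫⁻ t, ((tail g t + tail g s) * (g t * g s)) ∂μ ∂μ :=
        lintegral_mono_ae (hP.mono fun s hs => lintegral_mono_ae hs)
    _ = (2 * ∫⁻ t, g t * tail g t ∂μ) * (∫⁻ t, g t ∂μ) := hR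
    _ ≤ (∫⁻ t, g t ∂μ) ^ 2 * (∫⁻ t, g t ∂μ) := by gcongr
    _ = (∫⁻ t, g t ∂μ) ^ 3 := by ring

end Vale.Agent.P254
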