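import Mathlib

/-!
# P254: definitions

Isotropic constant of a convex body in `Fin n → ℝ` (Lebesgue measure), the standard simplex,
one-symmetric (permutation and sign invariant) sets, and the auxiliary notions used in the proof.
-/

open MeasureTheory Set
open scoped ENNReal

namespace Vale.Agent.P254

/-- compact convex set with nonempty interior -/
def IsBody {n : ℕ} (K : Set (Fin n → ℝ)) : Prop :=
  IsCompact K ∧ Convex ℝ K ∧ (interior K).Nonempty

/-- centroid -/
noncomputable def centroid {n : ℕ} (K : Set (Fin n → ℝ)) : Fin n → ℝ :=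
  fun i => (∫ x in K, x i) / (volume K).toReal

/-- covariance matrix -/
noncomputable def covMat {n : ℕ} (K : Set (Fin n → ℝ)) : Matrix (Fin n) (Fin n) ℝ :=
  Matrix.of fun i j =>
    (∫ x in K, (x i - centroid K i) * (x j - centroid K j)) / (volume K).toReal

/-- isotropic constant -/
noncomputable def isoConst {n : ℕ} (K : Set (Fin n → ℝ)) : ℝ :=
  (Matrix.det (covMat K) / (volume K).toReal ^ 2) ^ (1 / (2 * (n : ℝ)))

/-- invariant under permutations of the coordinates and under sign changes -/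
def OneSymmetric {n : ℕ} (K : Set (Fin n → ℝ)) : Prop :=
  ∀ x ∈ K, ∀ (σ : Equiv.Perm (Fin n)) (ε : Fin n → ℝ), (∀ i, ε i = 1 ∨ ε i = -1) →
    (fun i => ε i * x (σ i)) ∈ K

/-- the standard simplex with vertices `0, e_1, …, e_n` -/
def simplex (n : ℕ) : Set (Fin n → ℝ) := {x | (∀ i, 0 ≤ x i) ∧ ∑ i, x i ≤ 1}

/-- the part of a set in the positive orthant -/
def pos {n : ℕ} (K : Set (Fin n → ℝ)) : Set (Fin n → ℝ) := K ∩ {x | ∀ i, 0 ≤ x i}

/-- compact convex permutation invariant order ideal of the positive orthant -/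
structure Corner {n : ℕ} (A : Set (Fin n → ℝ)) : Prop where
  compact : IsCompact A
  convex : Convex ℝ A
  nonneg : ∀ x ∈ A, ∀ i, 0 ≤ x i
  down : ∀ x ∈ A, ∀ y : Fin n → ℝ, (∀ i, 0 ≤ y i) → (∀ i, y i ≤ x i) → y ∈ A
  symm : ∀ x ∈ A, ∀ σ : Equiv.Perm (Fin n), (fun i => x (σ i)) ∈ A

/-- the section at height `t` of the first coordinate -/
def sect {n : ℕ} (A : Set (Fin (n + 1) → ℝ)) (t : ℝ) : Set (Fin n → ℝ) :=
  {x | (Fin.cons t x : Fin (n + 1) → ℝ) ∈ A}

/-- the volume of the section -/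
noncomputable def sv {n : ℕ} (A : Set (Fin (n + 1) → ℝ)) (t : ℝ) : ℝ≥0∞ := volume (sect A t)

/-- nonincreasing and (midpoint) log-concave on `(0, ∞)` -/
structure LC (g : ℝ → ℝ≥0∞) : Prop where
  meas : Measurable g
  fin : ∀ t, 0 < t → g t ≠ ∞
  anti : ∀ s t, 0 < s → s ≤ t → g t ≤ g s
  mid : ∀ s t, 0 < s → 0 < t → g s * g t ≤ g ((s + t) / 2) ^ 2

/-- tail integral -/
noncomputable def tail (g : ℝ → ℝ≥0∞) (t : ℝ) : ℝ≥0∞ := ∫⁻ x in Ioi (0 : ℝ), g (t + x)

/-- the marginal of the gauge density `exp (- gauge)` of `A` on the first coordinate -/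
noncomputable def gm {n : ℕ} (A : Set (Fin (n + 1) → ℝ)) (t : ℝ) : ℝ≥0∞ :=
  ∫⁻ s in Ioi (0 : ℝ), ENNReal.ofReal (Real.exp (-s)) *
    volume {x : Fin n → ℝ | (fun i => s⁻¹ * (Fin.cons t x : Fin (n + 1) → ℝ) i) ∈ A}

end Vale.Agent.P254
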