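import Vale.Agent.P254.MainI
import Vale.Agent.P254.Bw3
import Vale.Agent.P254.Crn
import Vale.Agent.P254.Ort

open MeasureTheory Set
open scoped ENNReal

namespace Vale.Agent.P254

/-- the arithmetic of `body_bound` -/
theorem body_arith {n : ℕ} {v m q : ℝ} (hv : 0 < v) (hm : 0 ≤ m) (hq : 0 ≤ q)
    (h1 : (2 * m) ^ (n + 1) ≤ v ^ (n + 2))
    (h2 : ((n : ℝ) + 3) * (v * q) ≤ 2 * ((n : ℝ) + 2) * m ^ 2) :
    ((2 ^ (n + 1) * q) / (2 ^ (n + 1) * v)) ^ (n + 1) / (2 ^ (n + 1) * v) ^ 2 ≤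
      (((n : ℝ) + 2) / (8 * ((n : ℝ) + 3))) ^ (n + 1) := by
  have h3 : q / v ≤ 2 * ((n : ℝ) + 2) / ((n : ℝ) + 3) * (m ^ 2 / v ^ 2) := by
    rw [div_mul_div_comm, div_le_div_iff₀ hv (by positivity)]
    nlinarith [mul_le_mul_of_nonneg_right h2 hv.le]
  have h4 : (2 ^ (n + 1) * q) / (2 ^ (n + 1) * v) = q / v := by
    rw [mul_div_mul_left _ _ (by positivity)]
  rw [h4]
  have h5 : (q / v) ^ (n + 1) ≤
      (2 * ((n : ℝ) + 2) / ((n : ℝ) + 3)) ^ (n + 1) * (m ^ 2 / v ^ 2) ^ (n + 1) := by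
    rw [← mul_pow]
    exact pow_le_pow_left₀ (by positivity) h3 _
  have h6 : (m ^ 2 / v ^ 2) ^ (n + 1) ≤ v ^ 2 / 4 ^ (n + 1) := by
    have h7 : ((2 * m) ^ (n + 1)) ^ 2 ≤ (v ^ (n + 2)) ^ 2 :=
      pow_le_pow_left₀ (by positivity) h1 2
    rw [div_pow, div_le_div_iff₀ (by positivity) (by positivity)]
    have e1 : (m ^ 2) ^ (n + 1) * 4 ^ (n + 1) = ((2 * m) ^ (n + 1)) ^ 2 := by
      rw [← mul_pow, ← pow_mul, mul_comm (n + 1) 2, pow_mul]
      congr 1
      ring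
    have e2 : v ^ 2 * (v ^ 2) ^ (n + 1) = (v ^ (n + 2)) ^ 2 := by ring
    rw [e1, e2]
    exact h7
  have h8 : (q / v) ^ (n + 1) ≤
      (2 * ((n : ℝ) + 2) / ((n : ℝ) + 3)) ^ (n + 1) * (v ^ 2 / 4 ^ (n + 1)) :=
    h5.trans (mul_le_mul_of_nonneg_left h6 (by positivity))
  rw [div_le_iff₀ (by positivity)]
  refine h8.trans (le_of_eq ?_)
  have e3 : ((2 : ℝ) ^ (n + 1) * v) ^ 2 = 4 ^ (n + 1) * v ^ 2 := by
    rw [mul_pow, ← pow_mul, mul_comm (n + 1) 2, pow_mul]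
    norm_num
  rw [e3]
  have e4 : (2 * ((n : ℝ) + 2) / ((n : ℝ) + 3)) = ((n : ℝ) + 2) / (8 * ((n : ℝ) + 3)) * 16 := by
    field_simp
    ring
  rw [e4, mul_pow]
  have e5 : (16 : ℝ) ^ (n + 1) = 4 ^ (n + 1) * 4 ^ (n + 1) := by
    rw [← mul_pow]
    norm_num
  rw [e5]
  field_simp

/-- FIN1. With `V = volume (pos K)`, `M = ∫_(pos K) x_0`, `Q = ∫_(pos K) x_0^2`:
`volume K = 2^(n+1) V`, `∫_K x_0^2 = 2^(n+1) Q`, `(2 M)^(n+1) ≤ V^(n+2)`, `berwald`. -/
theorem body_bound {n : ℕ} {K : Set (Fin (n + 1) → ℝ)} (hK : IsBody K) (hs : OneSymmetric K) :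
    ((∫ x in K, (x 0) ^ 2) / (volume K).toReal) ^ (n + 1) / (volume K).toReal ^ 2 ≤
      (((n : ℝ) + 2) / (8 * ((n : ℝ) + 3))) ^ (n + 1) := by
  have hKm : MeasurableSet K := hK.1.isClosed.measurableSet
  have hA := pos_corner hK hs
  set V := volume (pos K) with hV
  set M := ∫⁻ x in pos K, ENNReal.ofReal (x 0) with hM
  set Q := ∫⁻ x in pos K, ENNReal.ofReal (x 0) ^ 2 with hQ
  have hvol : volume K = 2 ^ (n + 1) * V := by
    have := orthant hKm hs (f := fun _ => 1) measurable_const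
    simpa using this
  have hKfin : volume K ≠ ∞ := hK.1.measure_lt_top.ne
  have hKpos : volume K ≠ 0 := (Measure.measure_pos_of_nonempty_interior volume hK.2.2).ne'
  have hVfin : V ≠ ∞ := by
    intro h
    rw [hvol, h] at hKfin
    simp at hKfin
  have hVpos : V ≠ 0 := by
    intro h
    rw [hvol, h] at hKpos
    simp at hKpos
  have h1 := first_moment n (pos K) hA
  have h2 := berwald hA
  rw [← hM, ← hV] at h1
  rw [← hM, ← hV, ← hQ] at h2
  have hMfin : M ≠ ∞ := by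
    intro h
    rw [h] at h1
    have h3 : (2 * (∞ : ℝ≥0∞)) ^ (n + 1) = ∞ := by
      rw [ENNReal.mul_top (by norm_num)]
      exact ENNReal.top_pow (by omega)
    rw [h3, top_le_iff] at h1
    exact (ENNReal.pow_ne_top hVfin) h1
  have hQfin : Q ≠ ∞ := by
    intro h
    rw [h, ENNReal.mul_top hVpos] at h2
    have h3 : ((n : ℝ≥0∞) + 3) * ∞ = ∞ := ENNReal.mul_top (by positivity)
    rw [h3, top_le_iff] at h2
    refine (ENNReal.mul_ne_top (ENNReal.mul_ne_top (by norm_num) ?_)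
      (ENNReal.pow_ne_top hMfin)) h2
    exact ENNReal.add_ne_top.mpr ⟨ENNReal.natCast_ne_top n, by norm_num⟩
  have hint : ∫ x in K, (x 0) ^ 2 = 2 ^ (n + 1) * Q.toReal := by
    have hcont : Continuous fun x : Fin (n + 1) → ℝ => (x 0) ^ 2 := by fun_prop
    rw [integral_eq_lintegral_of_nonneg_ae (Filter.Eventually.of_forall fun x => sq_nonneg _)
      hcont.aestronglyMeasurable]
    have h3 : ∫⁻ x in K, ENNReal.ofReal ((x 0) ^ 2) = 2 ^ (n + 1) * Q := by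
      have := orthant hKm hs (f := fun x => ENNReal.ofReal (x 0) ^ 2) (by fun_prop)
      rw [← this]
      refine lintegral_congr fun x => ?_
      rw [← ENNReal.ofReal_pow (abs_nonneg _), sq_abs]
    rw [h3, ENNReal.toReal_mul]
    simp
  have hvolr : (volume K).toReal = 2 ^ (n + 1) * V.toReal := by
    rw [hvol, ENNReal.toReal_mul]
    simp
  rw [hint, hvolr]
  refine body_arith (ENNReal.toReal_pos hVpos hVfin) (m := M.toReal) ENNReal.toReal_nonneg
    ENNReal.toReal_nonneg ?_ ?_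
  · have h3 := ENNReal.toReal_mono (ENNReal.pow_ne_top hVfin) h1
    simpa [ENNReal.toReal_mul, ENNReal.toReal_pow] using h3
  · have h3 := ENNReal.toReal_mono (ENNReal.mul_ne_top (ENNReal.mul_ne_top (by norm_num)
      (ENNReal.add_ne_top.mpr ⟨ENNReal.natCast_ne_top n, by norm_num⟩))
      (ENNReal.pow_ne_top hMfin)) h2
    have e1 : ((n : ℝ≥0∞) + 3).toReal = (n : ℝ) + 3 := by
      rw [ENNReal.toReal_add (ENNReal.natCast_ne_top n) (by norm_num)]
      simp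
    have e2 : ((n : ℝ≥0∞) + 2).toReal = (n : ℝ) + 2 := by
      rw [ENNReal.toReal_add (ENNReal.natCast_ne_top n) (by norm_num)]
      simp
    rw [ENNReal.toReal_mul, ENNReal.toReal_mul, ENNReal.toReal_mul, ENNReal.toReal_mul,
      ENNReal.toReal_pow, e1, e2] at h3
    simpa using h3

end Vale.Agent.P254
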