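import Vale.Agent.P254.Defs

open MeasureTheory Set
open scoped ENNReal

namespace Vale.Agent.P254

/-- `(1 + 1/m)^(2m+1) ≤ 8` for `m ≥ 2`, in integers -/
theorem num_aux (m : ℕ) (hm : 2 ≤ m) : (m + 1) ^ (2 * m + 1) ≤ 8 * m ^ (2 * m + 1) := by
  rcases Nat.lt_or_ge m 13 with h13 | h13
  · interval_cases m <;> norm_num
  · have hm0 : (0 : ℝ) < m := by
      have : 0 < m := by omega
      exact_mod_cast this
    have hm13 : (13 : ℝ) ≤ m := by exact_mod_cast h13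
    have h1 : (1 + 1 / (m : ℝ)) ^ m ≤ Real.exp 1 := by
      have h2 : 1 + 1 / (m : ℝ) ≤ Real.exp (1 / m) := by
        have := Real.add_one_le_exp (1 / (m : ℝ))
        linarith
      calc (1 + 1 / (m : ℝ)) ^ m ≤ Real.exp (1 / m) ^ m := by gcongr
        _ = Real.exp 1 := by
          rw [← Real.exp_nat_mul]
          congr 1
          field_simp
    have h3 : (1 + 1 / (m : ℝ)) ^ (2 * m + 1) ≤ 8 := by
      have h4 : (1 + 1 / (m : ℝ)) ^ (2 * m + 1) =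
          ((1 + 1 / (m : ℝ)) ^ m) ^ 2 * (1 + 1 / (m : ℝ)) := by ring
      rw [h4]
      have h5 : ((1 + 1 / (m : ℝ)) ^ m) ^ 2 ≤ 2.7182818286 ^ 2 := by
        have := Real.exp_one_lt_d9
        gcongr
        linarith
      have h6 : 1 + 1 / (m : ℝ) ≤ 1 + 1 / 13 := by gcongr
      have h7 : (0 : ℝ) ≤ 1 + 1 / (m : ℝ) := by positivity
      calc ((1 + 1 / (m : ℝ)) ^ m) ^ 2 * (1 + 1 / (m : ℝ)) ≤ 2.7182818286 ^ 2 * (1 + 1 / 13) := by
            gcongr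
        _ ≤ 8 := by norm_num
    have key : ((m : ℝ) + 1) ^ (2 * m + 1) ≤ 8 * (m : ℝ) ^ (2 * m + 1) := by
      have h8 : ((m : ℝ) + 1) ^ (2 * m + 1) =
          (1 + 1 / (m : ℝ)) ^ (2 * m + 1) * (m : ℝ) ^ (2 * m + 1) := by
        rw [← mul_pow]
        congr 1
        field_simp
      rw [h8]
      gcongr
    exact_mod_cast key

/-- NUM. Ratio of consecutive terms: `(1 + 1/(n+1))^(2n+3) ≤ 8`. -/
theorem num_le (n : ℕ) (hn : 1 ≤ n) : (n + 1) ^ (2 * n + 1) ≤ 8 ^ n * n.factorial ^ 2 := by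
  induction n, hn using Nat.le_induction with
  | base => norm_num
  | succ n hn ih =>
    have h1 := num_aux (n + 1) (by omega)
    have h2 : (n + 1 + 1) ^ (2 * (n + 1) + 1) ≤ 8 * (n + 1) ^ 2 * (n + 1) ^ (2 * n + 1) := by
      calc (n + 1 + 1) ^ (2 * (n + 1) + 1) ≤ 8 * (n + 1) ^ (2 * (n + 1) + 1) := h1
        _ = 8 * (n + 1) ^ 2 * (n + 1) ^ (2 * n + 1) := by ring
    calc (n + 1 + 1) ^ (2 * (n + 1) + 1) ≤ 8 * (n + 1) ^ 2 * (n + 1) ^ (2 * n + 1) := h2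
      _ ≤ 8 * (n + 1) ^ 2 * (8 ^ n * n.factorial ^ 2) := Nat.mul_le_mul_left _ ih
      _ = 8 ^ (n + 1) * (n + 1).factorial ^ 2 := by
        rw [Nat.factorial_succ]
        ring

theorem num_lt (n : ℕ) (hn : 2 ≤ n) : (n + 1) ^ (2 * n + 1) < 8 ^ n * n.factorial ^ 2 := by
  induction n, hn using Nat.le_induction with
  | base => norm_num [Nat.factorial]
  | succ n hn ih =>
    have h1 := num_aux (n + 1) (by omega)
    have h2 : (n + 1 + 1) ^ (2 * (n + 1) + 1) ≤ 8 * (n + 1) ^ 2 * (n + 1) ^ (2 * n + 1) := by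
      calc (n + 1 + 1) ^ (2 * (n + 1) + 1) ≤ 8 * (n + 1) ^ (2 * (n + 1) + 1) := h1
        _ = 8 * (n + 1) ^ 2 * (n + 1) ^ (2 * n + 1) := by ring
    calc (n + 1 + 1) ^ (2 * (n + 1) + 1) ≤ 8 * (n + 1) ^ 2 * (n + 1) ^ (2 * n + 1) := h2
      _ < 8 * (n + 1) ^ 2 * (8 ^ n * n.factorial ^ 2) :=
        Nat.mul_lt_mul_of_pos_left ih (by positivity)
      _ = 8 ^ (n + 1) * (n + 1).factorial ^ 2 := by
        rw [Nat.factorial_succ]
        ring

end Vale.Agent.P254
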