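import Vale.Agent.P254.Sim

open MeasureTheory Set
open scoped ENNReal

namespace Vale.Agent.P254

theorem SIC_closed (n : ℕ) : IsClosed (simplex n) := by
  have h : simplex n = (⋂ i, {x : Fin n → ℝ | 0 ≤ x i}) ∩ {x : Fin n → ℝ | ∑ i, x i ≤ 1} := by
    ext x
    simp [simplex]
  rw [h]
  refine IsClosed.inter (isClosed_iInter fun i => isClosed_le continuous_const (continuous_apply i))
    (isClosed_le (continuous_finsetSum _ fun i _ => continuous_apply i) continuous_const)

theorem SIC_compact (n : ℕ) : IsCompact (simplex n) := by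
  refine (isCompact_Icc (a := (0 : Fin n → ℝ)) (b := 1)).of_isClosed_subset (SIC_closed n) ?_
  intro x hx
  refine ⟨fun i => hx.1 i, fun i => ?_⟩
  exact (Finset.single_le_sum (fun j _ => hx.1 j) (Finset.mem_univ i)).trans hx.2

theorem SIC_moment (n : ℕ) (a : Fin n → ℕ) :
    ∫ x in simplex n, ∏ i, x i ^ (a i) =
      ((∏ i, (a i).factorial : ℕ) : ℝ) / ((n + ∑ i, a i).factorial : ℝ) := by
  have hm : MeasurableSet (simplex n) := (SIC_closed n).measurableSet
  rw [integral_eq_lintegral_of_nonneg_ae]
  · have h1 : ∫⁻ x in simplex n, ENNReal.ofReal (∏ i, x i ^ (a i)) =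
        ∫⁻ x in simplex n, ∏ i, ENNReal.ofReal (x i) ^ (a i) := by
      refine setLIntegral_congr_fun hm fun x hx => ?_
      rw [ENNReal.ofReal_prod_of_nonneg fun i _ => pow_nonneg (hx.1 i) _]
      exact Finset.prod_congr rfl fun i _ => ENNReal.ofReal_pow (hx.1 i) _
    rw [h1, simplex_moment, ENNReal.toReal_div, ENNReal.toReal_natCast, ENNReal.toReal_natCast]
  · filter_upwards [ae_restrict_mem hm] with x hx
    exact Finset.prod_nonneg fun i _ => pow_nonneg (hx.1 i) _
  · refine Continuous.aestronglyMeasurable ?_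
    exact continuous_finsetProd _ fun i _ => (continuous_apply i).pow _

theorem SIC_vol (n : ℕ) : (volume (simplex n)).toReal = 1 / (n.factorial : ℝ) := by
  have h := simplex_moment n 0
  simp only [Pi.zero_apply, pow_zero, Finset.prod_const_one, Finset.sum_const_zero, add_zero,
    Nat.factorial_zero, lintegral_one, Measure.restrict_apply_univ, Nat.cast_one] at h
  rw [h, ENNReal.toReal_div, ENNReal.toReal_one, ENNReal.toReal_natCast]

theorem SIC_first (n : ℕ) (i : Fin n) :
    ∫ x in simplex n, x i = 1 / ((n + 1).factorial : ℝ) := by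
  have h := SIC_moment n (Pi.single i 1)
  have h1 : ∀ x : Fin n → ℝ, ∏ l, x l ^ ((Pi.single i 1 : Fin n → ℕ) l) = x i := by
    intro x
    rw [Finset.prod_eq_single i]
    · simp
    · intro j _ hj
      simp [hj]
    · intro hi
      exact absurd (Finset.mem_univ i) hi
  have h2 : ∏ l, ((Pi.single i 1 : Fin n → ℕ) l).factorial = 1 := by
    refine Finset.prod_eq_one fun l _ => ?_
    by_cases hl : l = i
    · subst hl
      simp
    · simp [hl]
  have h3 : ∑ l, (Pi.single i 1 : Fin n → ℕ) l = 1 := by simp
  simp only [h1, h2, h3, Nat.cast_one] at h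
  exact h

theorem SIC_second (n : ℕ) (i j : Fin n) :
    ∫ x in simplex n, x i * x j = (if i = j then 2 else 1) / ((n + 2).factorial : ℝ) := by
  have h := SIC_moment n (Pi.single i 1 + Pi.single j 1)
  have h0 : ∀ (x : Fin n → ℝ) (i : Fin n), ∏ l, x l ^ ((Pi.single i 1 : Fin n → ℕ) l) = x i := by
    intro x i
    rw [Finset.prod_eq_single i]
    · simp
    · intro j _ hj
      simp [hj]
    · intro hi
      exact absurd (Finset.mem_univ i) hi
  have h1 : ∀ x : Fin n → ℝ,
      ∏ l, x l ^ ((Pi.single i 1 + Pi.single j 1 : Fin n → ℕ) l) = x i * x j := by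
    intro x
    rw [← h0 x i, ← h0 x j, ← Finset.prod_mul_distrib]
    refine Finset.prod_congr rfl fun l _ => ?_
    rw [Pi.add_apply, pow_add]
  have h2 : ∏ l, ((Pi.single i 1 + Pi.single j 1 : Fin n → ℕ) l).factorial =
      if i = j then 2 else 1 := by
    by_cases hij : i = j
    · subst hij
      rw [if_pos rfl, Finset.prod_eq_single i]
      · simp
      · intro l _ hl
        simp [hl]
      · intro hi
        exact absurd (Finset.mem_univ i) hi
    · rw [if_neg hij]
      refine Finset.prod_eq_one fun l _ => ?_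
      by_cases hl : l = i
      · subst hl
        simp [hij]
      · by_cases hl' : l = j
        · subst hl'
          simp [hl]
        · simp [hl, hl']
  have h3 : ∑ l, (Pi.single i 1 + Pi.single j 1 : Fin n → ℕ) l = 2 := by
    simp [Finset.sum_add_distrib]
  simp only [h1, h2, h3] at h
  rw [h]
  congr 1
  split_ifs <;> simp

theorem SIC_centroid (n : ℕ) (i : Fin n) : centroid (simplex n) i = 1 / ((n : ℝ) + 1) := by
  unfold centroid
  rw [SIC_first, SIC_vol, Nat.factorial_succ]
  have h : (n.factorial : ℝ) ≠ 0 := by positivity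
  push_cast
  field_simp

theorem SIC_cov (n : ℕ) (i j : Fin n) : covMat (simplex n) i j =
    (1 / (((n : ℝ) + 1) * ((n : ℝ) + 2))) * ((if i = j then 1 else 0) - 1 / ((n : ℝ) + 1)) := by
  have hK := SIC_compact n
  have hint : ∀ f : (Fin n → ℝ) → ℝ, Continuous f → IntegrableOn f (simplex n) volume :=
    fun f hf => hf.continuousOn.integrableOn_compact hK
  unfold covMat
  rw [Matrix.of_apply, SIC_centroid, SIC_centroid]
  set c : ℝ := 1 / ((n : ℝ) + 1) with hc
  have e : ∀ x : Fin n → ℝ, (x i - c) * (x j - c) = x i * x j - c * x i - c * x j + c * c := by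
    intro x
    ring
  have hi := hint (fun x => x i) (continuous_apply i)
  have hj := hint (fun x => x j) (continuous_apply j)
  have hij := hint (fun x => x i * x j) ((continuous_apply i).mul (continuous_apply j))
  have h1 : ∫ x in simplex n, (x i - c) * (x j - c) =
      (∫ x in simplex n, x i * x j) - c * (∫ x in simplex n, x i) -
        c * (∫ x in simplex n, x j) + c * c * (volume (simplex n)).toReal := by
    simp only [e]
    have i1 : ∫ x in simplex n, (x i * x j - c * x i) =
        (∫ x in simplex n, x i * x j) - ∫ x in simplex n, c * x i :=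
      integral_sub hij (hi.const_mul c)
    have i2 : ∫ x in simplex n, (x i * x j - c * x i - c * x j) =
        (∫ x in simplex n, (x i * x j - c * x i)) - ∫ x in simplex n, c * x j :=
      integral_sub (hij.sub (hi.const_mul c)) (hj.const_mul c)
    have i3 : ∫ x in simplex n, (x i * x j - c * x i - c * x j + c * c) =
        (∫ x in simplex n, (x i * x j - c * x i - c * x j)) + ∫ _ in simplex n, c * c :=
      integral_add ((hij.sub (hi.const_mul c)).sub (hj.const_mul c))
        (hint (fun _ => c * c) continuous_const)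
    rw [i3, i2, i1, integral_const_mul, integral_const_mul, integral_const]
    simp only [smul_eq_mul, measureReal_def, Measure.restrict_apply_univ]
    ring
  rw [h1, SIC_first, SIC_first, SIC_second, SIC_vol]
  have h2 : ((n + 1).factorial : ℝ) = ((n : ℝ) + 1) * (n.factorial : ℝ) := by
    rw [Nat.factorial_succ]
    push_cast
    ring
  have h3 : ((n + 2).factorial : ℝ) = ((n : ℝ) + 2) * (((n : ℝ) + 1) * (n.factorial : ℝ)) := by
    rw [Nat.factorial_succ, Nat.factorial_succ]
    push_cast
    ring
  rw [h2, h3, hc]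
  have h : (n.factorial : ℝ) ≠ 0 := by positivity
  have h4 : (n : ℝ) + 1 ≠ 0 := by positivity
  have h5 : (n : ℝ) + 2 ≠ 0 := by positivity
  split_ifs <;> field_simp <;> ring

theorem SIC_det (n : ℕ) : (covMat (simplex n)).det =
    1 / (((n : ℝ) + 1) ^ (n + 1) * ((n : ℝ) + 2) ^ n) := by
  have h : covMat (simplex n) = (1 / (((n : ℝ) + 1) * ((n : ℝ) + 2))) •
      (1 + Matrix.replicateCol Unit (fun _ : Fin n => -(1 / ((n : ℝ) + 1))) *
        Matrix.replicateRow Unit (fun _ : Fin n => (1 : ℝ))) := by
    ext i j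
    rw [SIC_cov, Matrix.smul_apply, Matrix.add_apply, Matrix.one_apply, Matrix.mul_apply]
    simp only [Matrix.replicateCol_apply, Matrix.replicateRow_apply, Finset.univ_unique,
      Finset.sum_const, Finset.card_singleton, one_smul, smul_eq_mul, mul_one]
    ring
  rw [h, Matrix.det_smul, Matrix.det_one_add_replicateCol_mul_replicateRow, Fintype.card_fin]
  have h1 : (fun _ : Fin n => (1 : ℝ)) ⬝ᵥ (fun _ : Fin n => -(1 / ((n : ℝ) + 1))) =
      -((n : ℝ) / ((n : ℝ) + 1)) := by
    simp only [dotProduct, one_mul, Finset.sum_const, Finset.card_univ, Fintype.card_fin,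
      nsmul_eq_mul]
    ring
  rw [h1]
  have h4 : (n : ℝ) + 1 ≠ 0 := by positivity
  have h5 : (n : ℝ) + 2 ≠ 0 := by positivity
  rw [one_div, one_div, inv_pow, mul_pow, pow_succ]
  field_simp
  ring

/-- SIC. From the moments: centroid `1 / (n + 1)`, covariance
`((n + 1) δ_ij - 1) / ((n + 1)^2 (n + 2))`, determinant `1 / ((n + 1)^(n+1) (n + 2)^n)`,
volume `1 / n!`. -/
theorem isoConst_simplex (n : ℕ) (hn : 1 ≤ n) :
    isoConst (simplex n) = (((n.factorial : ℝ) ^ 2) / (((n : ℝ) + 1) ^ (n + 1) * ((n : ℝ) + 2) ^ n)) ^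
      (1 / (2 * (n : ℝ))) := by
  unfold isoConst
  rw [SIC_det, SIC_vol]
  congr 1
  have h : (n.factorial : ℝ) ≠ 0 := by positivity
  field_simp

end Vale.Agent.P254
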