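import Vale.Agent.P254.Defs

open MeasureTheory Set
open scoped ENNReal

namespace Vale.Agent.P254

/-- vertices of the standard simplex -/
noncomputable def SIM2_q (n : ℕ) : Fin (n + 1) → (Fin n → ℝ) :=
  Fin.cons 0 (fun i => Pi.single i 1)

theorem SIM2_std (n : ℕ) : simplex n = convexHull ℝ (Set.range (SIM2_q n)) := by
  apply Set.Subset.antisymm
  · intro x hx
    have h := (convex_convexHull ℝ (Set.range (SIM2_q n))).sum_mem (t := Finset.univ)
      (w := (Fin.cons (1 - ∑ i, x i) x : Fin (n + 1) → ℝ)) (z := SIM2_q n) (by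
        intro j _
        refine Fin.cases ?_ (fun i => ?_) j
        · show (0 : ℝ) ≤ 1 - ∑ i, x i
          linarith [hx.2]
        · exact hx.1 i) (by
        rw [Fin.sum_univ_succ]
        simp) (fun j _ => subset_convexHull ℝ _ (Set.mem_range_self j))
    have e : ∑ j, (Fin.cons (1 - ∑ i, x i) x : Fin (n + 1) → ℝ) j • SIM2_q n j = x := by
      rw [Fin.sum_univ_succ]
      simp only [Fin.cons_zero, Fin.cons_succ, SIM2_q, smul_zero, zero_add]
      funext k
      rw [Finset.sum_apply]
      simp [Pi.single_apply]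
    rw [e] at h
    exact h
  · refine convexHull_min ?_ ?_
    · rintro _ ⟨j, rfl⟩
      refine Fin.cases ?_ (fun i => ?_) j
      · refine ⟨fun i => ?_, ?_⟩
        · simp [SIM2_q]
        · simp [SIM2_q]
      · refine ⟨fun k => ?_, ?_⟩
        · simp only [SIM2_q, Fin.cons_succ, Pi.single_apply]
          split_ifs <;> norm_num
        · simp [SIM2_q]
    · intro x hx y hy a b ha hb hab
      refine ⟨fun i => ?_, ?_⟩
      · have h1 := hx.1 i
        have h2 := hy.1 i
        simp only [Pi.add_apply, Pi.smul_apply, smul_eq_mul]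
        positivity
      · have h1 := hx.2
        have h2 := hy.2
        simp only [Pi.add_apply, Pi.smul_apply, smul_eq_mul, Finset.sum_add_distrib,
          ← Finset.mul_sum]
        nlinarith

/-- SIM2. Every simplex is an affine image of the standard one. -/
theorem simplex_image {n : ℕ} (p : Fin (n + 1) → (Fin n → ℝ)) (hp : AffineIndependent ℝ p) :
    ∃ T : (Fin n → ℝ) ≃ᵃ[ℝ] (Fin n → ℝ), T '' simplex n = convexHull ℝ (Set.range p) := by
  have h1 := (affineIndependent_iff_linearIndependent_vsub ℝ p 0).1 hp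
  have h2 : LinearIndependent ℝ (fun i : Fin n => p i.succ - p 0) :=
    h1.comp (fun i : Fin n => (⟨i.succ, Fin.succ_ne_zero i⟩ : {x : Fin (n + 1) // x ≠ 0})) (by
      intro i j h
      have := congrArg Subtype.val h
      exact Fin.succ_injective _ this)
  have h3 : Function.Injective (Fintype.linearCombination ℝ (fun i : Fin n => p i.succ - p 0)) :=
    (linearIndependent_iff_injective_fintypeLinearCombination (v := fun i : Fin n => p i.succ - p 0)).1 h2
  let A := LinearEquiv.ofInjectiveEndo _ h3
  have hA : ∀ x, A x = ∑ i, x i • (p i.succ - p 0) := fun x => rfl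
  let T : (Fin n → ℝ) ≃ᵃ[ℝ] (Fin n → ℝ) :=
    A.toAffineEquiv.trans (AffineEquiv.constVAdd ℝ (Fin n → ℝ) (p 0))
  have hT : ∀ x, T x = p 0 + ∑ i, x i • (p i.succ - p 0) := fun x => rfl
  refine ⟨T, ?_⟩
  have h4 : T '' simplex n = (T : (Fin n → ℝ) →ᵃ[ℝ] (Fin n → ℝ)) '' simplex n := rfl
  rw [h4, SIM2_std, AffineMap.image_convexHull]
  congr 1
  rw [← Set.range_comp]
  congr 1
  funext j
  show T (SIM2_q n j) = p j
  rw [hT]
  refine Fin.cases ?_ (fun k => ?_) j
  · simp [SIM2_q]
  · simp [SIM2_q, Pi.single_apply]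

end Vale.Agent.P254
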