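import Vale.Agent.P254.Fin1
import Vale.Agent.P254.Cov
import Vale.Agent.P254.Sic
import Vale.Agent.P254.Aff
import Vale.Agent.P254.Sim2
import Vale.Agent.P254.Num

open MeasureTheory Set
open scoped ENNReal

namespace Vale.Agent.P254

theorem simplex_volume (n : ℕ) : volume (simplex n) = 1 / (n.factorial : ℝ≥0∞) := by
  have h := simplex_moment n (fun _ => 0)
  simpa using h

theorem simplex_compact (n : ℕ) : IsCompact (simplex n) := by
  have h1 : simplex n ⊆ Set.Icc (0 : Fin n → ℝ) 1 := by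
    intro x hx
    refine ⟨fun i => hx.1 i, fun i => ?_⟩
    exact (Finset.single_le_sum (fun j _ => hx.1 j) (Finset.mem_univ i)).trans hx.2
  refine isCompact_Icc.of_isClosed_subset ?_ h1
  have e : simplex n = (⋂ i, {x : Fin n → ℝ | 0 ≤ x i}) ∩ {x | ∑ i, x i ≤ 1} := by
    ext x
    simp [simplex]
  rw [e]
  refine IsClosed.inter (isClosed_iInter fun i => ?_) ?_
  · exact isClosed_le continuous_const (continuous_apply i)
  · exact isClosed_le (by fun_prop) continuous_const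

theorem isBody_image {n : ℕ} {K : Set (Fin n → ℝ)} (hK : IsBody K)
    (T : (Fin n → ℝ) ≃ᵃ[ℝ] (Fin n → ℝ)) : IsBody (T '' K) := by
  have hc : Continuous T := AffineMap.continuous_of_finiteDimensional (T : (Fin n → ℝ) →ᵃ[ℝ] (Fin n → ℝ))
  have hc' : Continuous T.symm :=
    AffineMap.continuous_of_finiteDimensional (T.symm : (Fin n → ℝ) →ᵃ[ℝ] (Fin n → ℝ))
  refine ⟨hK.1.image hc, ?_, ?_⟩
  · exact hK.2.1.affine_image (T : (Fin n → ℝ) →ᵃ[ℝ] (Fin n → ℝ))
  · obtain ⟨x, hx⟩ := hK.2.2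
    refine ⟨T x, ?_⟩
    rw [mem_interior]
    refine ⟨T '' interior K, Set.image_mono interior_subset, ?_, Set.mem_image_of_mem _ hx⟩
    have : T '' interior K = T.symm ⁻¹' interior K := by
      ext y
      constructor
      · rintro ⟨z, hz, rfl⟩
        simpa using hz
      · intro hy
        exact ⟨T.symm y, hy, by simp⟩
    rw [this]
    exact isOpen_interior.preimage hc'

theorem num_real {n : ℕ} (hn : 1 ≤ n) :
    (((n : ℝ) + 1) / (8 * ((n : ℝ) + 2))) ^ n ≤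
      ((n.factorial : ℝ) ^ 2) / (((n : ℝ) + 1) ^ (n + 1) * ((n : ℝ) + 2) ^ n) := by
  have h := num_le n hn
  have h' : ((n : ℝ) + 1) ^ (2 * n + 1) ≤ 8 ^ n * (n.factorial : ℝ) ^ 2 := by exact_mod_cast h
  rw [div_pow, mul_pow, div_le_div_iff₀ (by positivity) (by positivity)]
  have e1 : ((n : ℝ) + 1) ^ n * (((n : ℝ) + 1) ^ (n + 1) * ((n : ℝ) + 2) ^ n) =
      ((n : ℝ) + 1) ^ (2 * n + 1) * ((n : ℝ) + 2) ^ n := by ring
  have e2 : (n.factorial : ℝ) ^ 2 * (8 ^ n * ((n : ℝ) + 2) ^ n) =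
      (8 ^ n * (n.factorial : ℝ) ^ 2) * ((n : ℝ) + 2) ^ n := by ring
  rw [e1, e2]
  exact mul_le_mul_of_nonneg_right h' (by positivity)

theorem num_real_lt {n : ℕ} (hn : 2 ≤ n) :
    (((n : ℝ) + 1) / (8 * ((n : ℝ) + 2))) ^ n <
      ((n.factorial : ℝ) ^ 2) / (((n : ℝ) + 1) ^ (n + 1) * ((n : ℝ) + 2) ^ n) := by
  have h := num_lt n hn
  have h' : ((n : ℝ) + 1) ^ (2 * n + 1) < 8 ^ n * (n.factorial : ℝ) ^ 2 := by exact_mod_cast h
  rw [div_pow, mul_pow, div_lt_div_iff₀ (by positivity) (by positivity)]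
  have e1 : ((n : ℝ) + 1) ^ n * (((n : ℝ) + 1) ^ (n + 1) * ((n : ℝ) + 2) ^ n) =
      ((n : ℝ) + 1) ^ (2 * n + 1) * ((n : ℝ) + 2) ^ n := by ring
  have e2 : (n.factorial : ℝ) ^ 2 * (8 ^ n * ((n : ℝ) + 2) ^ n) =
      (8 ^ n * (n.factorial : ℝ) ^ 2) * ((n : ℝ) + 2) ^ n := by ring
  rw [e1, e2]
  exact mul_lt_mul_of_pos_right h' (by positivity)

/-- FIN2. -/
theorem main_le {n : ℕ} (hn : 1 ≤ n) {K : Set (Fin n → ℝ)} (hK : IsBody K)
    (T : (Fin n → ℝ) ≃ᵃ[ℝ] (Fin n → ℝ)) (hs : OneSymmetric (T '' K))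
    (p : Fin (n + 1) → (Fin n → ℝ)) (hp : AffineIndependent ℝ p) :
    isoConst K ≤ isoConst (convexHull ℝ (Set.range p)) ∧
      (2 ≤ n → isoConst K < isoConst (convexHull ℝ (Set.range p))) := by
  obtain ⟨k, rfl⟩ : ∃ k, n = k + 1 := ⟨n - 1, by omega⟩
  have hKv : volume K ≠ 0 := (Measure.measure_pos_of_nonempty_interior volume hK.2.2).ne'
  have h1 : isoConst K = isoConst (T '' K) := (isoConst_affine T hK.1 hKv).symm
  obtain ⟨T', hT'⟩ := simplex_image p hp
  have hSv : volume (simplex (k + 1)) ≠ 0 := by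
    rw [simplex_volume]
    simp
  have h2 : isoConst (convexHull ℝ (Set.range p)) = isoConst (simplex (k + 1)) := by
    rw [← hT']
    exact isoConst_affine T' (simplex_compact _) hSv
  have hB := isBody_image hK T
  rw [h1, h2, isoConst_oneSym hB hs, isoConst_simplex (k + 1) (by omega)]
  have h3 := body_bound hB hs
  set X := ((∫ x in T '' K, (x 0) ^ 2) / (volume (T '' K)).toReal) ^ (k + 1) /
    (volume (T '' K)).toReal ^ 2 with hX
  have hX0 : 0 ≤ X := by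
    rw [hX]
    have : 0 ≤ ∫ x in T '' K, (x 0) ^ 2 := integral_nonneg fun x => sq_nonneg _
    positivity
  have e1 : (((k : ℝ) + 2) / (8 * ((k : ℝ) + 3))) =
      ((((k + 1 : ℕ) : ℝ) + 1) / (8 * (((k + 1 : ℕ) : ℝ) + 2))) := by
    push_cast
    congr 1
    · ring
    · ring
  rw [e1] at h3
  have hexp : 0 < 1 / (2 * ((k + 1 : ℕ) : ℝ)) := by positivity
  constructor
  · exact Real.rpow_le_rpow hX0 (h3.trans (num_real (by omega))) hexp.le
  · intro hk
    exact Real.rpow_lt_rpow hX0 (h3.trans_lt (num_real_lt hk)) hexp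

end Vale.Agent.P254
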