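import Vale.Agent.P254.Fin2

open MeasureTheory Set
open scoped ENNReal

namespace Vale.Agent.P254

/-- FIN3a: the explicit bound -/
theorem isoConst_sq_le {n : ℕ} (hn : 1 ≤ n) {K : Set (Fin n → ℝ)} (hK : IsBody K)
    (T : (Fin n → ℝ) ≃ᵃ[ℝ] (Fin n → ℝ)) (hs : OneSymmetric (T '' K)) :
    isoConst K ^ 2 ≤ ((n : ℝ) + 1) / (8 * ((n : ℝ) + 2)) := by
  obtain ⟨k, rfl⟩ : ∃ k, n = k + 1 := ⟨n - 1, by omega⟩
  have hKv : volume K ≠ 0 := (Measure.measure_pos_of_nonempty_interior volume hK.2.2).ne'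
  have h1 : isoConst K = isoConst (T '' K) := (isoConst_affine T hK.1 hKv).symm
  have hB := isBody_image hK T
  rw [h1, isoConst_oneSym hB hs]
  have h3 := body_bound hB hs
  set X := ((∫ x in T '' K, (x 0) ^ 2) / (volume (T '' K)).toReal) ^ (k + 1) /
    (volume (T '' K)).toReal ^ 2 with hX
  have hX0 : 0 ≤ X := by
    rw [hX]
    have : 0 ≤ ∫ x in T '' K, (x 0) ^ 2 := integral_nonneg fun x => sq_nonneg _
    positivity
  have e1 : (((k : ℝ) + 2) / (8 * ((k : ℝ) + 3))) =
      ((((k + 1 : ℕ) : ℝ) + 1) / (8 * (((k + 1 : ℕ) : ℝ) + 2))) := by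
    push_cast
    congr 1
    · ring
    · ring
  rw [e1] at h3
  set Y := ((((k + 1 : ℕ) : ℝ) + 1) / (8 * (((k + 1 : ℕ) : ℝ) + 2))) with hY
  have hY0 : 0 ≤ Y := by positivity
  have h4 : (X ^ (1 / (2 * ((k + 1 : ℕ) : ℝ)))) ^ 2 = X ^ (1 / ((k + 1 : ℕ) : ℝ)) := by
    rw [← Real.rpow_natCast, ← Real.rpow_mul hX0]
    congr 1
    push_cast
    field_simp
  rw [h4]
  calc X ^ (1 / ((k + 1 : ℕ) : ℝ)) ≤ (Y ^ (k + 1)) ^ (1 / ((k + 1 : ℕ) : ℝ)) :=
        Real.rpow_le_rpow hX0 h3 (by positivity)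
    _ = Y := by
        rw [← Real.rpow_natCast, ← Real.rpow_mul hY0]
        have : ((k + 1 : ℕ) : ℝ) * (1 / ((k + 1 : ℕ) : ℝ)) = 1 := by
          field_simp
        rw [this, Real.rpow_one]

/-- FIN3b: volume and first absolute moment -/
theorem first_abs_moment {n : ℕ} {K : Set (Fin n → ℝ)} (hK : IsBody K) (hs : OneSymmetric K)
    (i : Fin n) :
    (4 * ((∫ x in K, |x i|) / (volume K).toReal)) ^ n ≤ (volume K).toReal := by
  obtain ⟨k, rfl⟩ : ∃ k, n = k + 1 := ⟨n - 1, by have := i.pos; omega⟩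
  have hKm : MeasurableSet K := hK.1.isClosed.measurableSet
  have hA := pos_corner hK hs
  set V := volume (pos K) with hV
  set M := ∫⁻ x in pos K, ENNReal.ofReal (x 0) with hM
  have hvol : volume K = 2 ^ (k + 1) * V := by
    have := orthant hKm hs (f := fun _ => 1) measurable_const
    simpa using this
  have hKfin : volume K ≠ ∞ := hK.1.measure_lt_top.ne
  have hKpos : volume K ≠ 0 := (Measure.measure_pos_of_nonempty_interior volume hK.2.2).ne'
  have hVfin : V ≠ ∞ := by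
    intro h
    rw [hvol, h] at hKfin
    simp at hKfin
  have hVpos : V ≠ 0 := by
    intro h
    rw [hvol, h] at hKpos
    simp at hKpos
  have h1 := first_moment k (pos K) hA
  rw [← hM, ← hV] at h1
  have hint : ∫ x in K, |x i| = 2 ^ (k + 1) * M.toReal := by
    have hcont : Continuous fun x : Fin (k + 1) → ℝ => |x i| := by fun_prop
    rw [integral_eq_lintegral_of_nonneg_ae (Filter.Eventually.of_forall fun x => abs_nonneg _)
      hcont.aestronglyMeasurable]
    have h3 : ∫⁻ x in K, ENNReal.ofReal |x i| = 2 ^ (k + 1) * M := by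
      have h4 := orthant hKm hs (f := fun x => ENNReal.ofReal (x i)) (by fun_prop)
      rw [h4, hM]
      congr 1
      exact lintegral_swap hA i 0 (f := fun y => ENNReal.ofReal y) ENNReal.measurable_ofReal
    rw [h3, ENNReal.toReal_mul]
    simp
  have hvolr : (volume K).toReal = 2 ^ (k + 1) * V.toReal := by
    rw [hvol, ENNReal.toReal_mul]
    simp
  have hv := ENNReal.toReal_pos hVpos hVfin
  have h5 : (2 * M.toReal) ^ (k + 1) ≤ V.toReal ^ (k + 2) := by
    have h3 := ENNReal.toReal_mono (ENNReal.pow_ne_top hVfin) h1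
    simpa [ENNReal.toReal_mul, ENNReal.toReal_pow] using h3
  rw [hint, hvolr, mul_div_mul_left _ _ (by positivity)]
  have h6 : (4 * (M.toReal / V.toReal)) ^ (k + 1) =
      2 ^ (k + 1) * ((2 * M.toReal) ^ (k + 1) / V.toReal ^ (k + 1)) := by
    rw [← div_pow, ← mul_pow]
    congr 1
    ring
  rw [h6]
  apply mul_le_mul_of_nonneg_left _ (by positivity)
  rw [div_le_iff₀ (by positivity)]
  refine h5.trans (le_of_eq ?_)
  ring

end Vale.Agent.P254
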