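import Vale.Agent.P254.Defs

open MeasureTheory Set
open scoped ENNReal

namespace Vale.Agent.P254

theorem FOUR_step {a : ℕ → ℝ} {K : ℕ} (hpos : ∀ k ≤ K, 0 < a k)
    (hmid : ∀ k, a k * a (k + 2) ≤ a (k + 1) ^ 2) (i d : ℕ) (hd : i + d + 1 ≤ K) :
    a i * a (i + d + 1) ≤ a (i + 1) * a (i + d) := by
  induction d with
  | zero =>
    exact (mul_comm (a i) (a (i + 1))).le
  | succ d ih =>
    have h1 := ih (by omega)
    have h2 := hmid (i + d)
    have p1 : 0 < a (i + d) := hpos _ (by omega)
    have p2 : 0 < a (i + d + 1) := hpos _ (by omega)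
    have p3 : 0 < a (i + 1) := hpos _ (by omega)
    have p4 : 0 < a i := hpos _ (by omega)
    have p5 : 0 < a (i + d + 2) := hpos _ (by omega)
    have e1 : i + (d + 1) + 1 = i + d + 2 := by omega
    have e2 : i + (d + 1) = i + d + 1 := by omega
    rw [e1, e2]
    have h3 : (a i * a (i + d + 1)) * (a (i + d) * a (i + d + 2)) ≤
        (a (i + 1) * a (i + d)) * a (i + d + 1) ^ 2 :=
      mul_le_mul h1 h2 (by positivity) (by positivity)
    have h4 : (a i * a (i + d + 2)) * (a (i + d) * a (i + d + 1)) ≤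
        (a (i + 1) * a (i + d + 1)) * (a (i + d) * a (i + d + 1)) := by
      calc (a i * a (i + d + 2)) * (a (i + d) * a (i + d + 1)) =
          (a i * a (i + d + 1)) * (a (i + d) * a (i + d + 2)) := by ring
        _ ≤ (a (i + 1) * a (i + d)) * a (i + d + 1) ^ 2 := h3
        _ = _ := by ring
    exact le_of_mul_le_mul_right h4 (by positivity)

theorem FOUR_seq {a : ℕ → ℝ} {K : ℕ} (hpos : ∀ k ≤ K, 0 < a k)
    (hmid : ∀ k, a k * a (k + 2) ≤ a (k + 1) ^ 2) (q N : ℕ) (hd : q + N ≤ K) :
    a 0 * a (q + N) ≤ a N * a q := by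
  induction N with
  | zero => exact le_rfl
  | succ N ih =>
    have h1 := ih (by omega)
    have h2 := FOUR_step hpos hmid N q (by omega)
    have p1 : 0 < a N := hpos _ (by omega)
    have p2 : 0 < a (q + N) := hpos _ (by omega)
    have p3 : 0 < a q := hpos _ (by omega)
    have p4 : 0 < a (N + 1) := hpos _ (by omega)
    have p5 : 0 < a (q + N + 1) := hpos _ (by omega)
    have e1 : N + q + 1 = q + N + 1 := by omega
    have e2 : N + q = q + N := by omega
    rw [e1, e2] at h2
    have h3 : (a 0 * a (q + N)) * (a N * a (q + N + 1)) ≤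
        (a N * a q) * (a (N + 1) * a (q + N)) :=
      mul_le_mul h1 h2 (by positivity) (by positivity)
    have h4 : (a 0 * a (q + N + 1)) * (a N * a (q + N)) ≤
        (a (N + 1) * a q) * (a N * a (q + N)) := by
      calc (a 0 * a (q + N + 1)) * (a N * a (q + N)) =
          (a 0 * a (q + N)) * (a N * a (q + N + 1)) := by ring
        _ ≤ (a N * a q) * (a (N + 1) * a (q + N)) := h3
        _ = _ := by ring
    exact le_of_mul_le_mul_right h4 (by positivity)

/-- FOUR. Take `N` with `x / N < s - s'`, `δ = x / N`, `q` with `s' ≤ t + q δ ≤ s`. The sequence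
`a k = g (t + k δ)` is nonincreasing with `a k * a (k + 2) ≤ a (k + 1) ^ 2`, hence
`a 0 * a (q + N) ≤ a N * a q`; then use monotonicity. (`x = 0` is trivial.) -/
theorem four_pt {g : ℝ → ℝ≥0∞} (h : LC g) {t s' s x : ℝ} (ht : 0 < t) (h1 : t ≤ s')
    (h2 : s' < s) (hx : 0 ≤ x) : g t * g (s + x) ≤ g (t + x) * g s' := by
  rcases hx.eq_or_lt with hx0 | hx0
  · rw [← hx0, add_zero, add_zero]
    exact mul_le_mul_right (h.anti s' s (by linarith) h2.le) (g t)
  obtain ⟨N, hN⟩ := exists_nat_gt (x / (s - s'))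
  have hss : 0 < s - s' := by linarith
  have hN0 : (0 : ℝ) < N := lt_trans (div_pos hx0 hss) hN
  set δ : ℝ := x / N with hδ
  have hδ0 : 0 < δ := div_pos hx0 hN0
  have hδ1 : δ < s - s' := by
    rw [hδ, div_lt_iff₀ hN0]
    rw [div_lt_iff₀ hss] at hN
    linarith
  have hNδ : (N : ℝ) * δ = x := by
    rw [hδ]
    field_simp
  set q : ℕ := ⌈(s' - t) / δ⌉₊ with hq
  have hq1 : (s' - t) / δ ≤ q := Nat.le_ceil _
  have hq2 : (q : ℝ) < (s' - t) / δ + 1 :=
    Nat.ceil_lt_add_one (div_nonneg (by linarith) hδ0.le)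
  have hq3 : s' ≤ t + q * δ := by
    rw [div_le_iff₀ hδ0] at hq1
    linarith
  have hq4 : t + q * δ ≤ s := by
    have h3 : (q : ℝ) * δ < ((s' - t) / δ + 1) * δ := mul_lt_mul_of_pos_right hq2 hδ0
    have h4 : ((s' - t) / δ + 1) * δ = s' - t + δ := by
      field_simp
    rw [h4] at h3
    linarith
  have hpt : ∀ k : ℕ, 0 < t + k * δ := fun k => by positivity
  -- the sequence
  set a : ℕ → ℝ≥0∞ := fun k => g (t + k * δ) with ha
  have hfin : ∀ k, a k ≠ ∞ := fun k => h.fin _ (hpt k)
  have hanti : ∀ j k, j ≤ k → a k ≤ a j := by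
    intro j k hjk
    refine h.anti _ _ (hpt j) ?_
    have : (j : ℝ) ≤ k := by exact_mod_cast hjk
    have := mul_le_mul_of_nonneg_right this hδ0.le
    linarith
  have hmid : ∀ k, a k * a (k + 2) ≤ a (k + 1) ^ 2 := by
    intro k
    have h3 := h.mid _ _ (hpt k) (hpt (k + 2))
    have h4 : (t + (k : ℝ) * δ + (t + ((k + 2 : ℕ) : ℝ) * δ)) / 2 = t + ((k + 1 : ℕ) : ℝ) * δ := by
      push_cast
      ring
    rw [h4] at h3
    exact h3
  have key : a 0 * a (q + N) ≤ a N * a q := by
    by_cases h0 : a (q + N) = 0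
    · rw [h0, mul_zero]
      exact bot_le
    have hr : (a 0).toReal * (a (q + N)).toReal ≤ (a N).toReal * (a q).toReal := by
      refine FOUR_seq (a := fun k => (a k).toReal) (K := q + N) ?_ ?_ q N le_rfl
      · intro k hk
        refine ENNReal.toReal_pos ?_ (hfin k)
        intro h3
        have h4 := hanti k (q + N) hk
        rw [h3] at h4
        exact h0 (le_antisymm h4 bot_le)
      · intro k
        have h3 := ENNReal.toReal_mono (ENNReal.pow_ne_top (hfin (k + 1))) (hmid k)
        rw [ENNReal.toReal_mul, ENNReal.toReal_pow] at h3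
        exact h3
    rw [← ENNReal.toReal_mul, ← ENNReal.toReal_mul] at hr
    exact (ENNReal.toReal_le_toReal (ENNReal.mul_ne_top (hfin _) (hfin _))
      (ENNReal.mul_ne_top (hfin _) (hfin _))).1 hr
  have e0 : a 0 = g t := by
    simp only [ha]
    congr 1
    push_cast
    ring
  have eN : a N = g (t + x) := by
    simp only [ha]
    rw [hNδ]
  have eqN : g (s + x) ≤ a (q + N) := by
    simp only [ha]
    refine h.anti _ _ (hpt _) ?_
    push_cast
    rw [add_mul, hNδ]
    linarith
  have eq : a q ≤ g s' := h.anti _ _ (by linarith) hq3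
  calc g t * g (s + x) ≤ a 0 * a (q + N) := by
        rw [e0]
        exact mul_le_mul_right eqN _
    _ ≤ a N * a q := key
    _ ≤ g (t + x) * g s' := by
        rw [eN]
        exact mul_le_mul_right eq _

end Vale.Agent.P254
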