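import Vale.Agent.P254.Four

open MeasureTheory Set
open scoped ENNReal

namespace Vale.Agent.P254

open Filter Topology in
private theorem haz_step {g : ℝ → ℝ≥0∞} (h : LC g) {t s' s : ℝ} (ht : 0 < t) (h1 : t ≤ s')
    (h2 : s' < s) : tail g s * g t ≤ tail g t * g s' := by
  have m1 : Measurable (fun x : ℝ => g (s + x)) := h.meas.comp (measurable_const_add s)
  have m2 : Measurable (fun x : ℝ => g (t + x)) := h.meas.comp (measurable_const_add t)
  unfold tail
  rw [← lintegral_mul_const _ m1, ← lintegral_mul_const _ m2]
  refine setLIntegral_mono (m2.mul_const _) (fun x hx => ?_)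
  have := four_pt h ht h1 h2 (le_of_lt hx)
  rwa [mul_comm (g t)] at this

open Filter Topology in
/-- HAZ. From `four_pt`, integrating over `x`, and letting `s' ↑ s` at the points `s > 0` where
the monotone function `g` (restricted to `(0, ∞)`) is continuous
(all but countably many: `Antitone.countable_not_continuousAt` applied to a monotone extension,
for instance `fun t => if 0 < t then g t else ∞`). -/
theorem hazard {g : ℝ → ℝ≥0∞} (h : LC g) :
    ∀ᵐ s : ℝ, 0 < s → ∀ t, 0 < t → t ≤ s → tail g s * g t ≤ tail g t * g s := by
  classical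
  obtain ⟨G, hG⟩ : ∃ G : ℝ → ℝ≥0∞, G = fun t => if 0 < t then g t else ∞ := ⟨_, rfl⟩
  have hanti : Antitone G := by
    intro a b hab
    rw [hG]
    by_cases ha : 0 < a
    · have hb : 0 < b := ha.trans_le hab
      simp only [ha, hb, if_true]
      exact h.anti a b ha hab
    · simp only [ha, if_false]
      exact le_top
  have hcount := hanti.countable_not_continuousAt
  have hae : ∀ᵐ s : ℝ, ContinuousAt G s := by
    rw [ae_iff]
    exact hcount.measure_zero volume
  filter_upwards [hae] with s hs hs0 t ht hts
  rcases hts.eq_or_lt with rfl | hlt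
  · exact le_refl _
  have hgs : ContinuousAt g s := by
    refine hs.congr ?_
    filter_upwards [eventually_gt_nhds hs0] with x hx
    rw [hG]
    simp only [hx, if_true]
  by_cases hz : g s = 0
  · have : tail g s = 0 := by
      unfold tail
      rw [setLIntegral_congr_fun measurableSet_Ioi (g := fun _ => 0) (fun x hx => ?_)]
      · simp
      · have hx0 : (0 : ℝ) < x := hx
        have := h.anti s (s + x) hs0 (by linarith)
        rw [hz] at this
        exact le_antisymm this (bot_le)
    rw [this, zero_mul]
    exact bot_le
  · have hlim : Tendsto (fun s' => tail g t * g s') (𝓝[<] s) (𝓝 (tail g t * g s)) :=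
      ENNReal.Tendsto.const_mul (hgs.tendsto.mono_left nhdsWithin_le_nhds) (Or.inl hz)
    refine ge_of_tendsto hlim ?_
    have e1 : ∀ᶠ s' in 𝓝[<] s, s' < s := eventually_mem_nhdsWithin
    have e2 : ∀ᶠ s' in 𝓝[<] s, t < s' :=
      (eventually_gt_nhds hlt).filter_mono nhdsWithin_le_nhds
    filter_upwards [e1, e2] with s' h1 h2
    exact haz_step h ht h2.le h1

end Vale.Agent.P254
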