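import Vale.Agent.P254.Defs

open MeasureTheory Set
open scoped ENNReal

namespace Vale.Agent.P254

/-- HOL. Hölder: `m ≤ g ^ (k/(k+1)) * (g ^ 2) ^ (1/(k+1))` and
`ENNReal.lintegral_mul_norm_pow_le` with `p = k/(k+1)`, `q = 1/(k+1)`, then raise to the power
`k + 1`. -/
theorem holder_step {μ : Measure ℝ} {g m : ℝ → ℝ≥0∞} (hg : Measurable g) (k : ℕ)
    (h : ∀ᵐ t ∂μ, (m t) ^ (k + 1) ≤ (g t) ^ (k + 2)) :
    (∫⁻ t, m t ∂μ) ^ (k + 1) ≤ (∫⁻ t, g t ∂μ) ^ k * ∫⁻ t, g t ^ 2 ∂μ := by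
  have hk : (0 : ℝ) < (k : ℝ) + 1 := by positivity
  set p : ℝ := (k : ℝ) / ((k : ℝ) + 1) with hp
  set q : ℝ := 1 / ((k : ℝ) + 1) with hq
  have hp0 : 0 ≤ p := by positivity
  have hq0 : 0 ≤ q := by positivity
  have hpq : p + q = 1 := by
    rw [hp, hq]
    field_simp
  have hpk : p * ((k + 1 : ℕ) : ℝ) = (k : ℝ) := by
    rw [hp]
    push_cast
    field_simp
  have hqk : q * ((k + 1 : ℕ) : ℝ) = 1 := by
    rw [hq]
    push_cast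
    field_simp
  have h1 : ∀ᵐ t ∂μ, m t ≤ g t ^ p * (g t ^ 2) ^ q := by
    filter_upwards [h] with t ht
    have e1 : m t = ((m t) ^ (k + 1)) ^ q := by
      rw [← ENNReal.rpow_natCast, ← ENNReal.rpow_mul, mul_comm, hqk, ENNReal.rpow_one]
    have e2 : ((g t) ^ (k + 2)) ^ q = g t ^ p * (g t ^ 2) ^ q := by
      have e3 : (g t) ^ (k + 2) = (g t) ^ k * (g t) ^ 2 := by rw [← pow_add]
      rw [e3, ENNReal.mul_rpow_of_nonneg _ _ hq0]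
      congr 1
      rw [← ENNReal.rpow_natCast, ← ENNReal.rpow_mul]
      congr 1
      rw [hp, hq]
      ring
    rw [e1, ← e2]
    exact ENNReal.rpow_le_rpow ht hq0
  have h2 : ∫⁻ t, m t ∂μ ≤ (∫⁻ t, g t ∂μ) ^ p * (∫⁻ t, g t ^ 2 ∂μ) ^ q :=
    (lintegral_mono_ae h1).trans
      (ENNReal.lintegral_mul_norm_pow_le hg.aemeasurable (hg.pow_const 2).aemeasurable hp0 hq0 hpq)
  calc (∫⁻ t, m t ∂μ) ^ (k + 1)
      ≤ ((∫⁻ t, g t ∂μ) ^ p * (∫⁻ t, g t ^ 2 ∂μ) ^ q) ^ (k + 1) := by gcongr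
    _ = (∫⁻ t, g t ∂μ) ^ k * ∫⁻ t, g t ^ 2 ∂μ := by
      rw [mul_pow, ← ENNReal.rpow_natCast, ← ENNReal.rpow_natCast, ← ENNReal.rpow_mul,
        ← ENNReal.rpow_mul, hpk, hqk, ENNReal.rpow_one, ENNReal.rpow_natCast]

end Vale.Agent.P254
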