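import Vale.Agent.P254.Defs

open MeasureTheory Set
open scoped ENNReal

namespace Vale.Agent.P254

/-- SC1 -/
theorem sect_corner {n : ℕ} {A : Set (Fin (n + 1) → ℝ)} (hA : Corner A) {t : ℝ} (ht : 0 ≤ t) :
    Corner (sect A t) := by
  have hcont : Continuous fun x : Fin n → ℝ => (Fin.cons t x : Fin (n + 1) → ℝ) := by
    refine continuous_pi fun i => ?_
    refine Fin.cases ?_ (fun j => ?_) i
    · exact continuous_const
    · simpa using continuous_apply j
  constructor
  · -- compact: closed, and the image of `A` under the tail projection contains it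
    have h1 : sect A t ⊆ (fun x : Fin (n + 1) → ℝ => fun i : Fin n => x i.succ) '' A := by
      intro x hx
      exact ⟨_, hx, by funext i; simp⟩
    have h2 : IsCompact ((fun x : Fin (n + 1) → ℝ => fun i : Fin n => x i.succ) '' A) :=
      hA.compact.image (by fun_prop)
    exact h2.of_isClosed_subset (hA.compact.isClosed.preimage hcont) h1
  · intro x hx y hy a b ha hb hab
    have h := hA.convex hx hy ha hb hab
    have : (a • (Fin.cons t x : Fin (n + 1) → ℝ) + b • (Fin.cons t y : Fin (n + 1) → ℝ)) =
        (Fin.cons t (a • x + b • y) : Fin (n + 1) → ℝ) := by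
      funext i
      refine Fin.cases ?_ (fun j => ?_) i
      · simp only [Pi.add_apply, Pi.smul_apply, Fin.cons_zero, smul_eq_mul]
        rw [← add_mul, hab, one_mul]
      · simp
    rw [this] at h
    exact h
  · intro x hx i
    simpa using hA.nonneg _ hx i.succ
  · intro x hx y hy0 hyx
    refine hA.down _ hx _ ?_ ?_
    · intro i
      refine Fin.cases ?_ (fun j => ?_) i
      · simpa using ht
      · simpa using hy0 j
    · intro i
      refine Fin.cases ?_ (fun j => ?_) i
      · simp
      · simpa using hyx j
  · intro x hx σ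
    have h := hA.symm _ hx (Equiv.Perm.decomposeFin.symm (0, σ))
    have : (fun i => (Fin.cons t x : Fin (n + 1) → ℝ) ((Equiv.Perm.decomposeFin.symm (0, σ)) i)) =
        (Fin.cons t (fun i => x (σ i)) : Fin (n + 1) → ℝ) := by
      funext i
      refine Fin.cases ?_ (fun j => ?_) i
      · simp [Equiv.Perm.decomposeFin_symm_apply_zero]
      · simp [Equiv.Perm.decomposeFin_symm_apply_succ]
    rw [this] at h
    exact h

end Vale.Agent.P254
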