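import Vale.Agent.P254.Defs
import Vale.Agent.P074.PL

open MeasureTheory Set
open scoped ENNReal

namespace Vale.Agent.P254

theorem SC2_measurable_cons {n : ℕ} :
    Measurable fun p : ℝ × (Fin n → ℝ) => (Fin.cons p.1 p.2 : Fin (n + 1) → ℝ) := by
  rw [measurable_pi_iff]
  intro i
  refine Fin.cases ?_ (fun j => ?_) i
  · simpa using measurable_fst
  · simp only [Fin.cons_succ]
    exact (measurable_pi_apply j).comp measurable_snd

theorem SC2_meas_sect {n : ℕ} {A : Set (Fin (n + 1) → ℝ)} (hA : MeasurableSet A) (t : ℝ) :
    MeasurableSet (sect A t) :=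
  (SC2_measurable_cons.comp (measurable_const.prodMk measurable_id)) hA

/-- SC2. Measurable: `measurable_measure_prodMk_left` through
`MeasurableEquiv.piFinSuccAbove (fun _ => ℝ) 0`; finite: compact; antitone: `Corner.down`;
midpoint: `Vale.Agent.P074.pl_pi` with the indicators of `sect A s`, `sect A t`,
`sect A ((s + t) / 2)` and convexity. -/
theorem sv_LC {n : ℕ} {A : Set (Fin (n + 1) → ℝ)} (hA : Corner A) : LC (sv A) := by
  have hm : MeasurableSet A := hA.compact.isClosed.measurableSet
  refine ⟨?_, ?_, ?_, ?_⟩
  · exact measurable_measure_prodMk_left (ν := (volume : Measure (Fin n → ℝ)))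
      (SC2_measurable_cons hm)
  · intro t _
    obtain ⟨R, hR⟩ := hA.compact.isBounded.subset_closedBall (0 : Fin (n + 1) → ℝ)
    have hsub : sect A t ⊆ Metric.closedBall (0 : Fin n → ℝ) R := by
      intro x hx
      have h1 := hR hx
      rw [mem_closedBall_zero_iff] at h1 ⊢
      refine le_trans ?_ h1
      rw [pi_norm_le_iff_of_nonneg (norm_nonneg _)]
      intro i
      have := norm_le_pi_norm (Fin.cons t x : Fin (n + 1) → ℝ) i.succ
      simpa using this
    exact ne_top_of_le_ne_top (isCompact_closedBall (0 : Fin n → ℝ) R).measure_lt_top.ne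
      (measure_mono hsub)
  · intro s t hs hst
    refine measure_mono fun x hx => ?_
    refine hA.down _ hx _ (fun i => ?_) (fun i => ?_)
    · refine Fin.cases ?_ (fun j => ?_) i
      · simpa using hs.le
      · simpa using hA.nonneg _ hx j.succ
    · refine Fin.cases ?_ (fun j => ?_) i
      · simpa using hst
      · simp
  · intro s t _ _
    have h1 := Vale.Agent.P074.pl_pi n
      (f := (sect A s).indicator 1) (g := (sect A t).indicator 1)
      (h := (sect A ((s + t) / 2)).indicator 1)
      (measurable_one.indicator (SC2_meas_sect hm s))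
      (measurable_one.indicator (SC2_meas_sect hm t))
      (measurable_one.indicator (SC2_meas_sect hm _)) ?_
    · rw [lintegral_indicator_one (SC2_meas_sect hm s),
        lintegral_indicator_one (SC2_meas_sect hm t),
        lintegral_indicator_one (SC2_meas_sect hm _)] at h1
      exact h1
    · intro x y
      by_cases hx : x ∈ sect A s
      · by_cases hy : y ∈ sect A t
        · have hxy : (1 / 2 : ℝ) • (x + y) ∈ sect A ((s + t) / 2) := by
            have h2 := hA.convex hx hy (show (0 : ℝ) ≤ 1 / 2 by norm_num)
              (show (0 : ℝ) ≤ 1 / 2 by norm_num) (by norm_num)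
            have e : (1 / 2 : ℝ) • (Fin.cons s x : Fin (n + 1) → ℝ) +
                (1 / 2 : ℝ) • (Fin.cons t y : Fin (n + 1) → ℝ) =
                Fin.cons ((s + t) / 2) ((1 / 2 : ℝ) • (x + y)) := by
              funext i
              refine Fin.cases ?_ (fun j => ?_) i
              · simp
                ring
              · simp
            rw [e] at h2
            exact h2
          rw [indicator_of_mem hx, indicator_of_mem hy, indicator_of_mem hxy]
          simp
        · rw [indicator_of_notMem hy, mul_zero]
          exact zero_le
      · rw [indicator_of_notMem hx, zero_mul]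
        exact zero_le

end Vale.Agent.P254
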