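import Vale.Agent.P254.Defs

open MeasureTheory Set
open scoped ENNReal

namespace Vale.Agent.P254

/-- SC4. Invariance of `A` and of the measure under permutations. -/
theorem lintegral_swap {n : ℕ} {A : Set (Fin n → ℝ)} (hA : Corner A) (i j : Fin n)
    {f : ℝ → ℝ≥0∞} (hf : Measurable f) : ∫⁻ x in A, f (x i) = ∫⁻ x in A, f (x j) := by
  let σ : Equiv.Perm (Fin n) := Equiv.swap i j
  let T : (Fin n → ℝ) ≃ᵐ (Fin n → ℝ) := MeasurableEquiv.piCongrLeft (fun _ => ℝ) σ
  have hT : ∀ (x : Fin n → ℝ) (k : Fin n), T x k = x (σ k) := by
    intro x k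
    have h := Equiv.piCongrLeft_apply_apply (P := fun _ : Fin n => ℝ) σ x (σ k)
    have e : σ (σ k) = k := Equiv.swap_apply_self i j k
    rw [e] at h
    exact h
  have hmp : MeasurePreserving T := volume_measurePreserving_piCongrLeft (fun _ => ℝ) σ
  have hpre : T ⁻¹' A = A := by
    ext x
    constructor
    · intro hx
      have h := hA.symm (T x) hx σ
      have e : (fun k => T x (σ k)) = x := by
        funext k
        rw [hT]
        exact congrArg x (Equiv.swap_apply_self i j k)
      rwa [e] at h
    · intro hx
      have h := hA.symm x hx σ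
      have e : T x = fun k => x (σ k) := funext fun k => hT x k
      show T x ∈ A
      rw [e]
      exact h
  have h := hmp.setLIntegral_comp_preimage_emb T.measurableEmbedding (fun x => f (x i)) A
  rw [hpre] at h
  rw [← h]
  refine lintegral_congr fun x => ?_
  rw [hT]
  exact congrArg f (congrArg x (Equiv.swap_apply_left i j))

end Vale.Agent.P254
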