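import Vale.Agent.P254.Dbl
import Vale.Agent.P254.Hol
import Vale.Agent.P254.Sc1
import Vale.Agent.P254.Sc2
import Vale.Agent.P254.Sc3
import Vale.Agent.P254.Sc4

open MeasureTheory Set
open scoped ENNReal

namespace Vale.Agent.P254

private theorem MAIN_vol {n : ℕ} {A : Set (Fin (n + 1) → ℝ)} (hA : Corner A) :
    volume A = ∫⁻ t in Ioi (0 : ℝ), sv A t := by
  have h1 := lintegral_sect hA (f := fun _ => 1) measurable_const
  simpa [sv] using h1

private theorem MAIN_mom {n : ℕ} {A : Set (Fin (n + 1) → ℝ)} (hA : Corner A) :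
    ∫⁻ x in A, ENNReal.ofReal (x 0) = ∫⁻ t in Ioi (0 : ℝ), ENNReal.ofReal t * sv A t := by
  have h1 := lintegral_sect hA (f := fun x => ENNReal.ofReal (x 0))
    (measurable_pi_apply 0).ennreal_ofReal
  simpa [sv] using h1

private theorem MAIN_mom' {n : ℕ} {A : Set (Fin (n + 2) → ℝ)} (hA : Corner A) :
    ∫⁻ x in A, ENNReal.ofReal (x 0)
      = ∫⁻ t in Ioi (0 : ℝ), ∫⁻ y in sect A t, ENNReal.ofReal (y 0) := by
  have h0 := lintegral_swap hA 0 1 (f := fun s => ENNReal.ofReal s) ENNReal.measurable_ofReal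
  have h1 := lintegral_sect hA (f := fun x => ENNReal.ofReal (x 1))
    (measurable_pi_apply 1).ennreal_ofReal
  refine (h0.trans h1).trans ?_
  rfl

private theorem MAIN_zero {A : Set (Fin 1 → ℝ)} (t : ℝ) : sv A t ^ 2 = sv A t := by
  unfold sv
  rcases (sect A t).eq_empty_or_nonempty with h | h
  · rw [h]
    simp
  · have h2 : sect A t = univ := Subsingleton.eq_univ_of_nonempty h
    rw [h2, Measure.volume_pi_eq_dirac default]
    simp

/-- MAIN. Induction on `n`. With `V = volume A`, `M = ∫_A x_0`, `g = sv A`: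
`M = ∫ t g t` and `M = ∫ (∫_(sect A t) y_0) dt`. Step: the induction hypothesis for the sections
gives `(2 m t)^(n+1) ≤ g t^(n+2)`, `holder_step` gives `(2 M)^(n+1) ≤ V^n * ∫ g^2`, and
`double_int` gives `2 M * ∫ g^2 ≤ V^3`.  Case `n = 0`: `g ∈ {0, 1}` so `g^2 = g`, `double_int`. -/
theorem first_moment (n : ℕ) (A : Set (Fin (n + 1) → ℝ)) (hA : Corner A) :
    (2 * ∫⁻ x in A, ENNReal.ofReal (x 0)) ^ (n + 1) ≤ (volume A) ^ (n + 2) := by
  induction n with
  | zero =>
    have h1 := double_int (sv_LC hA)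
    simp only [MAIN_zero] at h1
    rw [← MAIN_vol hA, ← MAIN_mom hA] at h1
    suffices hs : 2 * ∫⁻ x in A, ENNReal.ofReal (x 0) ≤ volume A ^ 2 by
      simpa using hs
    have hfin : volume A ≠ ∞ := hA.compact.measure_lt_top.ne
    rcases eq_or_ne (volume A) 0 with h0 | h0
    · have h2 : ∫⁻ x in A, ENNReal.ofReal (x 0) = 0 := by
        rw [Measure.restrict_eq_zero.2 h0, lintegral_zero_measure]
      rw [h2, mul_zero]
      exact zero_le
    · have h3 : (2 * ∫⁻ x in A, ENNReal.ofReal (x 0)) * volume A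
          ≤ (volume A) ^ 2 * volume A := by
        refine h1.trans (le_of_eq ?_)
        ring
      exact (ENNReal.mul_le_mul_iff_left h0 hfin).1 h3
  | succ n ih =>
    have hLC := sv_LC hA
    have h1 := double_int hLC
    rw [← MAIN_vol hA, ← MAIN_mom hA] at h1
    have h2 := holder_step (μ := volume.restrict (Ioi (0 : ℝ))) (g := sv A)
      (m := fun t => 2 * ∫⁻ y in sect A t, ENNReal.ofReal (y 0)) hLC.meas n
      (ae_restrict_of_forall_mem measurableSet_Ioi fun t ht =>
        ih (sect A t) (sect_corner hA (le_of_lt ht)))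
    rw [lintegral_const_mul' _ _ (by norm_num), ← MAIN_vol hA, ← MAIN_mom' hA] at h2
    set M := 2 * ∫⁻ x in A, ENNReal.ofReal (x 0) with hM
    set V := volume A with hV
    set G := ∫⁻ t in Ioi (0 : ℝ), sv A t ^ 2 with hG
    calc M ^ (n + 1 + 1) = M ^ (n + 1) * M := pow_succ _ _
      _ ≤ (V ^ n * G) * M := mul_le_mul_left h2 _
      _ = V ^ n * (M * G) := by ring
      _ ≤ V ^ n * V ^ 3 := mul_le_mul_right h1 _
      _ = V ^ (n + 1 + 2) := by rw [← pow_add]

end Vale.Agent.P254
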