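import Vale.Agent.P254.Haz

open MeasureTheory Set
open scoped ENNReal

namespace Vale.Agent.P254

theorem nbu_tail_eq (g : ℝ → ℝ≥0∞) (t : ℝ) : tail g t = ∫⁻ y in Ioi t, g y := by
  unfold tail
  rw [← lintegral_indicator measurableSet_Ioi, ← lintegral_indicator measurableSet_Ioi,
    ← lintegral_add_left_eq_self (fun x => (Ioi t).indicator g x) t]
  congr 1
  funext x
  by_cases hx : 0 < x
  · rw [indicator_of_mem (mem_Ioi.2 hx), indicator_of_mem (mem_Ioi.2 (by linarith))]
  · rw [indicator_of_notMem (by simpa using hx), indicator_of_notMem (by simpa using hx)]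

theorem nbu_shift (g : ℝ → ℝ≥0∞) (a : ℝ) :
    ∫⁻ x in Ioi (0 : ℝ), g (x + a) = ∫⁻ y in Ioi a, g y := by
  rw [← nbu_tail_eq g a]
  unfold tail
  exact lintegral_congr fun x => by rw [add_comm]

theorem nbu_tail_meas {g : ℝ → ℝ≥0∞} (h : Measurable g) : Measurable (tail g) := by
  unfold tail
  have h1 : Measurable (Function.uncurry fun (t x : ℝ) => g (t + x)) :=
    h.comp (measurable_fst.add measurable_snd)
  exact h1.lintegral_prod_right'

/-- Tonelli on the triangle. -/
theorem nbu_swap {F w : ℝ → ℝ≥0∞} (hF : Measurable F) (hw : Measurable w) :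
    ∫⁻ a in Ioi (0 : ℝ), w a * ∫⁻ y in Ioi a, F y =
      ∫⁻ y in Ioi (0 : ℝ), (∫⁻ a in Ioo (0 : ℝ) y, w a) * F y := by
  have hS : MeasurableSet {z : ℝ × ℝ | z.1 < z.2} := measurableSet_lt measurable_fst measurable_snd
  have hK : Measurable (fun z : ℝ × ℝ => {z : ℝ × ℝ | z.1 < z.2}.indicator
      (fun z => w z.1 * F z.2) z) :=
    ((hw.comp measurable_fst).mul (hF.comp measurable_snd)).indicator hS
  have e1 : ∀ a : ℝ, w a * ∫⁻ y in Ioi a, F y =
      ∫⁻ y, {z : ℝ × ℝ | z.1 < z.2}.indicator (fun z => w z.1 * F z.2) (a, y) := by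
    intro a
    rw [← lintegral_const_mul _ hF, ← lintegral_indicator measurableSet_Ioi]
    rfl
  have e2 : ∀ y : ℝ, 0 < y → (∫⁻ a in Ioo (0 : ℝ) y, w a) * F y =
      ∫⁻ a in Ioi (0 : ℝ), {z : ℝ × ℝ | z.1 < z.2}.indicator (fun z => w z.1 * F z.2) (a, y) := by
    intro y _
    rw [← lintegral_mul_const _ hw, ← lintegral_indicator measurableSet_Ioo,
      ← lintegral_indicator measurableSet_Ioi]
    congr 1
    funext a
    by_cases h1 : 0 < a <;> by_cases h2 : a < y <;>
      simp [indicator, h1, h2]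
  have e3 : ∀ y : ℝ, y ≤ 0 →
      ∫⁻ a in Ioi (0 : ℝ), {z : ℝ × ℝ | z.1 < z.2}.indicator (fun z => w z.1 * F z.2) (a, y)
        = 0 := by
    intro y hy
    rw [setLIntegral_congr_fun measurableSet_Ioi (g := fun _ => 0)]
    · simp
    · intro a ha
      have : ¬ a < y := by
        have := mem_Ioi.1 ha
        linarith
      simp [indicator, this]
  calc ∫⁻ a in Ioi (0 : ℝ), w a * ∫⁻ y in Ioi a, F y
      = ∫⁻ a in Ioi (0 : ℝ), ∫⁻ y, {z : ℝ × ℝ | z.1 < z.2}.indicator
          (fun z => w z.1 * F z.2) (a, y) := by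
        refine lintegral_congr fun a => e1 a
    _ = ∫⁻ y, ∫⁻ a in Ioi (0 : ℝ), {z : ℝ × ℝ | z.1 < z.2}.indicator
          (fun z => w z.1 * F z.2) (a, y) :=
        lintegral_lintegral_swap (μ := volume.restrict (Ioi 0)) (ν := volume)
          (f := fun a y => {z : ℝ × ℝ | z.1 < z.2}.indicator (fun z => w z.1 * F z.2) (a, y))
          hK.aemeasurable
    _ = ∫⁻ y in Ioi (0 : ℝ), (∫⁻ a in Ioo (0 : ℝ) y, w a) * F y := by
        rw [← lintegral_indicator measurableSet_Ioi]
        refine lintegral_congr fun y => ?_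
        by_cases hy : 0 < y
        · rw [indicator_of_mem (mem_Ioi.2 hy), e2 y hy]
        · rw [indicator_of_notMem (by simpa using hy), e3 y (not_lt.1 hy)]

/-- new better than used, strict shift -/
theorem nbu_pt {g : ℝ → ℝ≥0∞} (h : LC g) {σ t θ : ℝ} (hσ : 0 < σ) (ht : 0 < t) (hθ : 0 < θ) :
    (∫⁻ y in Ioi (0 : ℝ), g y) * tail g (σ + θ + t) ≤ tail g σ * tail g t := by
  have hg := h.meas
  have s1 : (∫⁻ y in Ioi (0 : ℝ), g y) = (∫⁻ y in Ioc (0 : ℝ) t, g y) + tail g t := by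
    rw [nbu_tail_eq, ← lintegral_union measurableSet_Ioi (Ioc_disjoint_Ioi le_rfl),
      Ioc_union_Ioi_eq_Ioi ht.le]
  have s2 : tail g σ = (∫⁻ y in Ioc (0 : ℝ) t, g (σ + y)) + tail g (σ + t) := by
    have e : tail g (σ + t) = ∫⁻ y in Ioi t, g (σ + y) := by
      rw [← nbu_tail_eq (fun y => g (σ + y)) t]
      unfold tail
      simp_rw [add_assoc]
    rw [e, ← lintegral_union measurableSet_Ioi (Ioc_disjoint_Ioi le_rfl),
      Ioc_union_Ioi_eq_Ioi ht.le]
    rfl
  rw [s1, s2, add_mul, add_mul]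
  refine add_le_add ?_ ?_
  · -- first part
    have hm1 : Measurable fun x : ℝ => g (σ + θ + t + x) := hg.comp (measurable_const_add _)
    have hm2 : Measurable fun x : ℝ => g (t + x) := hg.comp (measurable_const_add _)
    have hm3 : Measurable fun y : ℝ => g (σ + y) := hg.comp (measurable_const_add _)
    unfold tail
    rw [← lintegral_mul_const _ hg, ← lintegral_mul_const _ hm3]
    refine setLIntegral_mono' measurableSet_Ioc fun y hy => ?_
    rw [← lintegral_const_mul _ hm1, ← lintegral_const_mul _ hm2]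
    refine setLIntegral_mono' measurableSet_Ioi fun x hx => ?_
    have hx0 : 0 < x := hx
    have := four_pt h (t := y) (s' := σ + y) (s := σ + θ + y) (x := t + x - y) hy.1
      (by linarith) (by linarith) (by linarith [hy.2])
    have e1 : σ + θ + y + (t + x - y) = σ + θ + t + x := by ring
    have e2 : y + (t + x - y) = t + x := by ring
    rw [e1, e2, mul_comm (g (t + x))] at this
    exact this
  · rw [mul_comm (tail g (σ + t))]
    gcongr
    unfold tail
    refine setLIntegral_mono' measurableSet_Ioi fun x hx => ?_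
    have hx0 : 0 < x := hx
    exact h.anti _ _ (by linarith) (by linarith)

theorem nbu_half (y : ℝ) (hy : 0 < y) :
    2 * ∫⁻ a in Ioo (0 : ℝ) y, ENNReal.ofReal a = ENNReal.ofReal y ^ 2 := by
  have h1 : ∫⁻ a in Ioo (0 : ℝ) y, ENNReal.ofReal a = ENNReal.ofReal (∫ a in Ioo (0 : ℝ) y, a) := by
    rw [ofReal_integral_eq_lintegral_ofReal]
    · exact (continuous_id.integrableOn_Icc).mono_set Ioo_subset_Icc_self
    · refine (ae_restrict_iff' measurableSet_Ioo).2 (Filter.Eventually.of_forall fun a ha => ?_)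
      exact ha.1.le
  have h2 : ∫ a in Ioo (0 : ℝ) y, a = y ^ 2 / 2 := by
    rw [← integral_Ioc_eq_integral_Ioo, ← intervalIntegral.integral_of_le hy.le, integral_id]
    ring
  rw [h1, h2, ← ENNReal.ofReal_pow hy.le]
  have : (2 : ℝ≥0∞) = ENNReal.ofReal 2 := by simp
  rw [this, ← ENNReal.ofReal_mul (by norm_num)]
  congr 1
  ring

/-- NBU. `tail g 0' * tail g (s + t) ≤ tail g s * tail g t` with `tail g 0' = ∫ g`:
`tail g (s + t) * ∫_(0,t] g ≤ tail g t * ∫_(s,s+t] g` by `four_pt` under the integral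
(a.e. version), add `tail (s + t) * tail t` on both sides. Then integrate over `s, t > 0`:
`∫∫ tail g (s + t) = ∫ u * tail g u = (1/2) ∫ t ^ 2 g` and `∫ tail g = ∫ t g`. -/
theorem second_moment {g : ℝ → ℝ≥0∞} (h : LC g) :
    (∫⁻ t in Ioi (0 : ℝ), g t) * (∫⁻ t in Ioi (0 : ℝ), ENNReal.ofReal t ^ 2 * g t) ≤
      2 * (∫⁻ t in Ioi (0 : ℝ), ENNReal.ofReal t * g t) ^ 2 := by
  have hg := h.meas
  have hG := nbu_tail_meas hg
  have hvol : ∀ y : ℝ, ∫⁻ a in Ioo (0 : ℝ) y, (1 : ℝ≥0∞) = ENNReal.ofReal y := by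
    intro y
    simp
  -- first moment
  have m1 : ∫⁻ t in Ioi (0 : ℝ), ENNReal.ofReal t * g t = ∫⁻ a in Ioi (0 : ℝ), tail g a := by
    have := nbu_swap (w := fun _ => 1) hg measurable_const
    simp only [one_mul, hvol] at this
    rw [← this]
    refine lintegral_congr fun a => (nbu_tail_eq g a).symm
  -- the double tail
  set H : ℝ → ℝ≥0∞ := fun v => ∫⁻ u in Ioi v, tail g u with hH
  have m2 : ∫⁻ v in Ioi (0 : ℝ), H v = ∫⁻ u in Ioi (0 : ℝ), ENNReal.ofReal u * tail g u := by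
    have := nbu_swap (w := fun _ => 1) hG measurable_const
    simp only [one_mul, hvol] at this
    exact this
  have m3 : 2 * ∫⁻ v in Ioi (0 : ℝ), H v = ∫⁻ t in Ioi (0 : ℝ), ENNReal.ofReal t ^ 2 * g t := by
    have h1 := nbu_swap (F := g) (w := fun u => ENNReal.ofReal u) hg ENNReal.measurable_ofReal
    have h2 : ∫⁻ u in Ioi (0 : ℝ), ENNReal.ofReal u * tail g u =
        ∫⁻ a in Ioi (0 : ℝ), ENNReal.ofReal a * ∫⁻ y in Ioi a, g y :=
      lintegral_congr fun a => by rw [nbu_tail_eq]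
    rw [m2, h2, h1]
    have hmeas : Measurable fun y : ℝ => (∫⁻ a in Ioo (0 : ℝ) y, ENNReal.ofReal a) * g y := by
      refine Measurable.mul ?_ hg
      have hmono : Monotone fun y : ℝ => ∫⁻ a in Ioo (0 : ℝ) y, ENNReal.ofReal a :=
        fun y z hyz => lintegral_mono_set (Ioo_subset_Ioo_right hyz)
      exact hmono.measurable
    rw [← lintegral_const_mul _ hmeas]
    refine setLIntegral_congr_fun measurableSet_Ioi fun y hy => ?_
    rw [← mul_assoc, nbu_half y hy]
  -- the inequality for the shifted double tail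
  have key : ∀ θ : ℝ, 0 < θ → (∫⁻ t in Ioi (0 : ℝ), g t) * ∫⁻ v in Ioi θ, H v ≤
      (∫⁻ a in Ioi (0 : ℝ), tail g a) ^ 2 := by
    intro θ hθ
    have hHm : Measurable H := by
      have hanti : Antitone H := fun v w hvw => lintegral_mono_set (Ioi_subset_Ioi hvw)
      exact hanti.measurable
    have e1 : ∫⁻ v in Ioi θ, H v = ∫⁻ σ in Ioi (0 : ℝ), H (σ + θ) := (nbu_shift H θ).symm
    have e2 : ∀ σ : ℝ, H (σ + θ) = ∫⁻ t in Ioi (0 : ℝ), tail g (σ + θ + t) := by
      intro σ
      exact (nbu_tail_eq (tail g) (σ + θ)).symm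
    have hm : Measurable fun σ : ℝ => H (σ + θ) := hHm.comp (measurable_add_const _)
    rw [e1, ← lintegral_const_mul _ hm, sq, ← lintegral_mul_const _ hG]
    refine setLIntegral_mono' measurableSet_Ioi fun σ hσ => ?_
    have hσ0 : 0 < σ := hσ
    have hm2 : Measurable fun t : ℝ => tail g (σ + θ + t) := hG.comp (measurable_const_add _)
    rw [e2, ← lintegral_const_mul _ hm2, ← lintegral_const_mul _ hG]
    refine setLIntegral_mono' measurableSet_Ioi fun t ht => ?_
    exact nbu_pt h hσ0 ht hθ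
  -- limit
  have hU : (⋃ n : ℕ, Ioi (1 / ((n : ℝ) + 1))) = Ioi (0 : ℝ) := by
    ext x
    simp only [mem_iUnion, mem_Ioi]
    constructor
    · rintro ⟨n, hn⟩
      exact lt_trans (by positivity) hn
    · intro hx
      exact exists_nat_one_div_lt hx
  have hdir : Directed (· ⊆ ·) fun n : ℕ => Ioi (1 / ((n : ℝ) + 1)) := by
    refine directed_of_isDirected_le fun m n hmn => Ioi_subset_Ioi ?_
    exact one_div_le_one_div_of_le (by positivity) (by gcongr)
  have lim : ∫⁻ v in Ioi (0 : ℝ), H v = ⨆ n : ℕ, ∫⁻ v in Ioi (1 / ((n : ℝ) + 1)), H v := by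
    rw [← hU]
    exact setLIntegral_iUnion_of_directed _ hdir
  have fin : (∫⁻ t in Ioi (0 : ℝ), g t) * ∫⁻ v in Ioi (0 : ℝ), H v ≤
      (∫⁻ a in Ioi (0 : ℝ), tail g a) ^ 2 := by
    rw [lim, ENNReal.mul_iSup]
    exact iSup_le fun n => key _ (by positivity)
  rw [← m3, m1, mul_left_comm]
  gcongr

end Vale.Agent.P254
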