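import Vale.Agent.P254.Defs

open MeasureTheory Set
open scoped ENNReal

namespace Vale.Agent.P254

theorem SIM_beta_real (q : ℕ) : ∀ (p : ℕ) (s : ℝ),
    ∫ t in (0 : ℝ)..s, t ^ p * (s - t) ^ q =
      ((p.factorial : ℝ) * q.factorial / ((p + q + 1).factorial : ℝ)) * s ^ (p + q + 1) := by
  induction q with
  | zero =>
    intro p s
    have h1 : ∀ t : ℝ, t ^ p * (s - t) ^ 0 = t ^ p := by intro t; simp
    simp only [h1, integral_pow]
    have h2 : ((p + 0 + 1).factorial : ℝ) = ((p : ℝ) + 1) * p.factorial := by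
      rw [add_zero, Nat.factorial_succ]; push_cast; ring
    rw [h2]
    have h3 : (p.factorial : ℝ) ≠ 0 := by exact_mod_cast p.factorial_ne_zero
    have h4 : (p : ℝ) + 1 ≠ 0 := by positivity
    simp
    field_simp
  | succ q ih =>
    intro p s
    have hd : ∀ t : ℝ, HasDerivAt (fun t : ℝ => t ^ (p + 1) * (s - t) ^ (q + 1))
        (((p : ℝ) + 1) * (t ^ p * (s - t) ^ (q + 1)) -
          ((q : ℝ) + 1) * (t ^ (p + 1) * (s - t) ^ q)) t := by
      intro t
      have h1 : HasDerivAt (fun t : ℝ => t ^ (p + 1)) (((p + 1 : ℕ) : ℝ) * t ^ p) t := by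
        simpa using hasDerivAt_pow (p + 1) t
      have h2 : HasDerivAt (fun t : ℝ => (s - t) ^ (q + 1))
          (((q + 1 : ℕ) : ℝ) * (s - t) ^ q * (-1)) t := by
        have h3 : HasDerivAt (fun t : ℝ => s - t) (-1) t := by
          simpa using (hasDerivAt_id t).const_sub s
        exact h3.fun_pow (q + 1)
      refine (h1.mul h2).congr_deriv ?_
      push_cast
      ring
    have hc1 : Continuous fun t : ℝ => t ^ p * (s - t) ^ (q + 1) := by fun_prop
    have hc2 : Continuous fun t : ℝ => t ^ (p + 1) * (s - t) ^ q := by fun_prop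
    have h := intervalIntegral.integral_eq_sub_of_hasDerivAt (a := 0) (b := s)
      (fun t _ => hd t) (by
        apply Continuous.intervalIntegrable
        fun_prop)
    rw [intervalIntegral.integral_sub ((hc1.const_mul _).intervalIntegrable _ _)
      ((hc2.const_mul _).intervalIntegrable _ _), intervalIntegral.integral_const_mul,
      intervalIntegral.integral_const_mul, ih (p + 1) s] at h
    simp only [sub_self, ne_eq, Nat.add_eq_zero_iff, one_ne_zero, and_false, not_false_eq_true,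
      zero_pow, mul_zero, zero_mul] at h
    have h4 : (p : ℝ) + 1 ≠ 0 := by positivity
    have h5 : (((p + 1).factorial : ℕ) : ℝ) = ((p : ℝ) + 1) * p.factorial := by
      rw [Nat.factorial_succ]; push_cast; ring
    have h6 : (((q + 1).factorial : ℕ) : ℝ) = ((q : ℝ) + 1) * q.factorial := by
      rw [Nat.factorial_succ]; push_cast; ring
    have h7 : p + 1 + q + 1 = p + (q + 1) + 1 := by ring
    rw [h7, h5] at h
    rw [h6]
    have h8 : ((p : ℝ) + 1) * (∫ t in (0 : ℝ)..s, t ^ p * (s - t) ^ (q + 1)) =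
        ((p : ℝ) + 1) * (((p.factorial : ℝ) * (((q : ℝ) + 1) * q.factorial) /
          ((p + (q + 1) + 1).factorial : ℝ)) * s ^ (p + (q + 1) + 1)) := by
      linear_combination h
    exact mul_left_cancel₀ h4 h8

theorem SIM_beta (p q : ℕ) {s : ℝ} (hs : 0 ≤ s) :
    ∫⁻ t in Icc (0 : ℝ) s, ENNReal.ofReal t ^ p * ENNReal.ofReal (s - t) ^ q =
      ((p.factorial : ℝ≥0∞) * q.factorial / ((p + q + 1).factorial : ℝ≥0∞)) *
        ENNReal.ofReal s ^ (p + q + 1) := by
  have h1 : ∫⁻ t in Icc (0 : ℝ) s, ENNReal.ofReal t ^ p * ENNReal.ofReal (s - t) ^ q =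
      ∫⁻ t in Icc (0 : ℝ) s, ENNReal.ofReal (t ^ p * (s - t) ^ q) := by
    refine setLIntegral_congr_fun measurableSet_Icc fun t ht => ?_
    have h2 : 0 ≤ s - t := by linarith [ht.2]
    rw [ENNReal.ofReal_mul (pow_nonneg ht.1 _), ENNReal.ofReal_pow ht.1, ENNReal.ofReal_pow h2]
  rw [h1]
  have hc : Continuous fun t : ℝ => t ^ p * (s - t) ^ q := by fun_prop
  rw [← ofReal_integral_eq_lintegral_ofReal (hc.integrableOn_Icc)
    ((ae_restrict_iff' measurableSet_Icc).2 (Filter.Eventually.of_forall fun t ht =>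
      mul_nonneg (pow_nonneg ht.1 _) (pow_nonneg (by linarith [ht.2]) _))),
    integral_Icc_eq_integral_Ioc, ← intervalIntegral.integral_of_le hs, SIM_beta_real,
    ENNReal.ofReal_mul (by positivity), ENNReal.ofReal_pow hs,
    ENNReal.ofReal_div_of_pos (by positivity), ENNReal.ofReal_mul (by positivity)]
  simp only [ENNReal.ofReal_natCast]

theorem SIM_cons {n : ℕ} {F : (Fin (n + 1) → ℝ) → ℝ≥0∞} (hF : Measurable F) :
    ∫⁻ x, F x = ∫⁻ t : ℝ, ∫⁻ y : Fin n → ℝ, F (Fin.cons t y) := by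
  have h := (volume_preserving_piFinSuccAbove (fun _ : Fin (n + 1) => ℝ) 0).symm
  have hF2 : Measurable fun p : ℝ × (Fin n → ℝ) =>
      F ((MeasurableEquiv.piFinSuccAbove (fun _ : Fin (n + 1) => ℝ) 0).symm p) :=
    hF.comp (MeasurableEquiv.measurable _)
  rw [← h.lintegral_comp hF, Measure.volume_eq_prod, lintegral_prod _ hF2.aemeasurable]
  refine lintegral_congr fun t => lintegral_congr fun y => ?_
  simp [MeasurableEquiv.piFinSuccAbove]
  rfl

theorem SIM_meas (n : ℕ) (s : ℝ) :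
    MeasurableSet {x : Fin n → ℝ | (∀ i, 0 ≤ x i) ∧ ∑ i, x i ≤ s} := by
  have h1 : {x : Fin n → ℝ | (∀ i, 0 ≤ x i) ∧ ∑ i, x i ≤ s} =
      (⋂ i, {x : Fin n → ℝ | 0 ≤ x i}) ∩ {x : Fin n → ℝ | ∑ i, x i ≤ s} := by
    ext x; simp
  rw [h1]
  refine MeasurableSet.inter
    (MeasurableSet.iInter fun i => measurableSet_le measurable_const (measurable_pi_apply i)) ?_
  exact measurableSet_le (Finset.measurable_sum _ fun i _ => measurable_pi_apply i)
    measurable_const

theorem SIM_main (n : ℕ) : ∀ (a : Fin n → ℕ) (s : ℝ), 0 ≤ s →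
    ∫⁻ x in {x : Fin n → ℝ | (∀ i, 0 ≤ x i) ∧ ∑ i, x i ≤ s}, ∏ i, ENNReal.ofReal (x i) ^ (a i) =
      ((∏ i, (a i).factorial : ℕ) : ℝ≥0∞) / ((n + ∑ i, a i).factorial : ℝ≥0∞) *
        ENNReal.ofReal s ^ (n + ∑ i, a i) := by
  induction n with
  | zero =>
    intro a s hs
    have h1 : {x : Fin 0 → ℝ | (∀ i, 0 ≤ x i) ∧ ∑ i, x i ≤ s} = univ := by
      ext x; simp [hs]
    have h2 : volume (univ : Set (Fin 0 → ℝ)) = 1 := by
      rw [← pi_univ (univ : Set (Fin 0)), volume_pi_pi]
      simp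
    rw [h1]
    simp [h2]
  | succ n ih =>
    intro a s hs
    have hG : Measurable fun x : Fin (n + 1) → ℝ => ∏ i, ENNReal.ofReal (x i) ^ (a i) := by
      fun_prop
    rw [← lintegral_indicator (SIM_meas (n + 1) s),
      SIM_cons (hG.indicator (SIM_meas (n + 1) s))]
    have hin : ∀ t : ℝ, (∫⁻ y : Fin n → ℝ, indicator
        {x : Fin (n + 1) → ℝ | (∀ i, 0 ≤ x i) ∧ ∑ i, x i ≤ s}
        (fun x => ∏ i, ENNReal.ofReal (x i) ^ (a i)) (Fin.cons t y)) =
        indicator (Icc 0 s) (fun t => ENNReal.ofReal t ^ (a 0) *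
          ENNReal.ofReal (s - t) ^ (n + ∑ i, a (Fin.succ i)) *
          (((∏ i, (a (Fin.succ i)).factorial : ℕ) : ℝ≥0∞) /
            ((n + ∑ i, a (Fin.succ i)).factorial : ℝ≥0∞))) t := by
      intro t
      by_cases ht : t ∈ Icc 0 s
      · rw [indicator_of_mem ht]
        have h2 : ∀ y : Fin n → ℝ, indicator
            {x : Fin (n + 1) → ℝ | (∀ i, 0 ≤ x i) ∧ ∑ i, x i ≤ s}
            (fun x => ∏ i, ENNReal.ofReal (x i) ^ (a i)) (Fin.cons t y) =
            ENNReal.ofReal t ^ (a 0) * indicator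
              {x : Fin n → ℝ | (∀ i, 0 ≤ x i) ∧ ∑ i, x i ≤ s - t}
              (fun x => ∏ i, ENNReal.ofReal (x i) ^ (a (Fin.succ i))) y := by
          intro y
          by_cases hy : y ∈ {x : Fin n → ℝ | (∀ i, 0 ≤ x i) ∧ ∑ i, x i ≤ s - t}
          · rw [indicator_of_mem hy, indicator_of_mem]
            · rw [Fin.prod_univ_succ]
              simp
            · refine ⟨fun i => ?_, ?_⟩
              · refine Fin.cases ?_ (fun j => ?_) i
                · simpa using ht.1
                · simpa using hy.1 j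
              · rw [Fin.sum_univ_succ]
                have := hy.2
                simp only [Fin.cons_zero, Fin.cons_succ]
                linarith
          · rw [indicator_of_notMem hy, indicator_of_notMem, mul_zero]
            rintro ⟨h3, h4⟩
            refine hy ⟨fun i => ?_, ?_⟩
            · simpa using h3 i.succ
            · rw [Fin.sum_univ_succ] at h4
              simp only [Fin.cons_zero, Fin.cons_succ] at h4
              linarith
        simp only [h2]
        rw [lintegral_const_mul, lintegral_indicator (SIM_meas n (s - t)),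
          ih (fun i => a i.succ) (s - t) (by linarith [ht.2])]
        · rw [mul_assoc, mul_comm (ENNReal.ofReal (s - t) ^ _)]
        · exact Measurable.indicator (by fun_prop) (SIM_meas n (s - t))
      · rw [indicator_of_notMem ht]
        have h2 : ∀ y : Fin n → ℝ, indicator
            {x : Fin (n + 1) → ℝ | (∀ i, 0 ≤ x i) ∧ ∑ i, x i ≤ s}
            (fun x => ∏ i, ENNReal.ofReal (x i) ^ (a i)) (Fin.cons t y) = 0 := by
          intro y
          rw [indicator_of_notMem]
          rintro ⟨h3, h4⟩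
          refine ht ⟨by simpa using h3 0, ?_⟩
          rw [Fin.sum_univ_succ] at h4
          simp only [Fin.cons_zero, Fin.cons_succ] at h4
          have h5 : 0 ≤ ∑ i, y i := Finset.sum_nonneg fun i _ => by simpa using h3 i.succ
          linarith
        simp [h2]
    simp only [hin]
    rw [lintegral_indicator measurableSet_Icc, lintegral_mul_const _ (by fun_prop),
      SIM_beta _ _ hs, Fin.sum_univ_succ, Fin.prod_univ_succ]
    have h9 : a 0 + (n + ∑ i, a (Fin.succ i)) + 1 = n + 1 + (a 0 + ∑ i, a (Fin.succ i)) := by ring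
    rw [h9]
    have h10 : ((n + ∑ i, a (Fin.succ i)).factorial : ℝ≥0∞) ≠ 0 := by
      exact_mod_cast Nat.factorial_ne_zero _
    have h11 : ((n + ∑ i, a (Fin.succ i)).factorial : ℝ≥0∞) ≠ ∞ := ENNReal.natCast_ne_top _
    push_cast
    rw [div_eq_mul_inv, div_eq_mul_inv, div_eq_mul_inv]
    set N := ((n + ∑ i, a (Fin.succ i)).factorial : ℝ≥0∞)
    set Q := (∏ i : Fin n, ((a i.succ).factorial : ℝ≥0∞))
    have h12 : N * N⁻¹ = 1 := ENNReal.mul_inv_cancel h10 h11
    calc _ = ((a 0).factorial : ℝ≥0∞) * Q *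
          ((n + 1 + (a 0 + ∑ i, a (Fin.succ i))).factorial : ℝ≥0∞)⁻¹ *
          ENNReal.ofReal s ^ (n + 1 + (a 0 + ∑ i, a (Fin.succ i))) * (N * N⁻¹) := by ring
      _ = _ := by rw [h12, mul_one]

/-- SIM. Moments of the standard simplex: `∫ x^a = ∏ a_i ! / (n + |a|)!`, e.g. from
`∫_(x ≥ 0) x^a e^(- Σ x) = ∏ a_i !` and `e^(- Σ x) = ∫_(s > Σ x) e^(-s) ds`. -/
theorem simplex_moment (n : ℕ) (a : Fin n → ℕ) :
    ∫⁻ x in simplex n, ∏ i, ENNReal.ofReal (x i) ^ (a i) =
      ((∏ i, (a i).factorial : ℕ) : ℝ≥0∞) / ((n + ∑ i, a i).factorial : ℝ≥0∞) := by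
  have h := SIM_main n a 1 zero_le_one
  simpa [simplex] using h

end Vale.Agent.P254
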